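import Vale.Agent.P358.E3

/-!
The entropy inequality for one use of the channel applied to a block matrix.
-/

namespace Vale.Agent.P358

open Matrix Vale.Agent.P350
open scoped ComplexOrder MatrixOrder

variable {n m l : Type} [Fintype n] [Fintype m] [Fintype l] [DecidableEq n] [DecidableEq m]
  [DecidableEq l]

/-- homogeneous entropy -/
noncomputable def HH (X : Matrix n n ℂ) : ℝ := rt X * Real.log (rt X) - phi X

/-- homogeneous binary entropy -/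
noncomputable def h2 (x y : ℝ) : ℝ := (x + y) * Real.log (x + y) - x * Real.log x - y * Real.log y

theorem eta_mul' {c r : ℝ} (hc : 0 ≤ c) (hr : 0 ≤ r) :
    c * r * Real.log (c * r) = c * (r * Real.log r) + c * Real.log c * r := by
  rcases eq_or_lt_of_le hc with h | h
  · simp [← h]
  · exact eta_mul h hr

theorem h2_smul {c x y : ℝ} (hc : 0 ≤ c) (hx : 0 ≤ x) (hy : 0 ≤ y) :
    h2 (c * x) (c * y) = c * h2 x y := by
  rw [h2, h2, ← mul_add, eta_mul' hc hx, eta_mul' hc hy, eta_mul' hc (add_nonneg hx hy)]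
  ring

theorem HH_smul {X : Matrix n n ℂ} (hX : 0 ≤ X) {c : ℝ} (hc : 0 ≤ c) : HH (c • X) = c * HH X := by
  rw [HH, HH, rt_smul, phi_smul hX hc, eta_mul' hc (rt_nonneg hX)]
  ring

theorem HH_zero : HH (0 : Matrix n n ℂ) = 0 := by simp [HH, rt_zero, phi_zero]

theorem HH_add {X Y : Matrix n n ℂ} (hX : 0 ≤ X) (hY : 0 ≤ Y) : HH X + HH Y ≤ HH (X + Y) := by
  have := phi_add_le hX hY
  simp only [HH]
  linarith

theorem HH_submatrix (e : m ≃ n) {X : Matrix n n ℂ} (hX : 0 ≤ X) :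
    HH (X.submatrix e e) = HH X := by
  rw [HH, HH, rt_submatrix, phi_submatrix e hX]

theorem HH_diag {A : Matrix n n ℂ} {D : Matrix m m ℂ} (hA : 0 ≤ A) (hD : 0 ≤ D) :
    HH (fromBlocks A 0 0 D) = HH A + HH D + h2 (rt A) (rt D) := by
  simp only [HH, h2]
  rw [phi_fromBlocks_diag hA hD, rt_fromBlocks]
  ring

theorem e3_scaled {y : Matrix n n ℂ} (hy : 0 ≤ y) (V : Matrix n m ℂ) (W : Matrix l m ℂ)
    {a b d lam μ₁ μ₂ : ℝ} (ha : 0 ≤ a) (hb : 0 ≤ b) (hd : 0 ≤ d) (hl : 0 ≤ lam)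
    (hlam : lam ^ 2 = a * d) (hμ₁ : 0 ≤ μ₁) (hμ₂ : 0 ≤ μ₂)
    (hsum : μ₁ + μ₂ = b * rt y + a * rt (V * Vᴴ) + d * rt (W * Wᴴ))
    (hprod : μ₁ * μ₂ = b * rt y * (d * rt (W * Wᴴ))) :
    0 ≤ fromBlocks (b • y + a • (V * Vᴴ)) (lam • (V * Wᴴ)) (lam • (W * Vᴴ)) (d • (W * Wᴴ)) ∧
    b * HH y + a * HH (V * Vᴴ) + d * HH (W * Wᴴ) + h2 μ₁ μ₂
      ≤ HH (fromBlocks (b • y + a • (V * Vᴴ)) (lam • (V * Wᴴ)) (lam • (W * Vᴴ))
        (d • (W * Wᴴ))) := by
  have e0 : Real.sqrt a * Real.sqrt d = lam := by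
    rw [← Real.sqrt_mul ha, ← hlam, Real.sqrt_sq hl]
  have e1 : (Real.sqrt a • V) * (Real.sqrt a • V)ᴴ = a • (V * Vᴴ) := by
    simp [smul_smul, Real.mul_self_sqrt ha]
  have e2 : (Real.sqrt d • W) * (Real.sqrt d • W)ᴴ = d • (W * Wᴴ) := by
    simp [smul_smul, Real.mul_self_sqrt hd]
  have e3' : (Real.sqrt a • V) * (Real.sqrt d • W)ᴴ = lam • (V * Wᴴ) := by
    simp [smul_smul, mul_comm, e0]
  have e4 : (Real.sqrt d • W) * (Real.sqrt a • V)ᴴ = lam • (W * Vᴴ) := by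
    simp [smul_smul, e0]
  have h0 := block_nonneg (smul_nonneg' hy hb) (Real.sqrt a • V) (Real.sqrt d • W)
  have h := e3 (smul_nonneg' hy hb) (Real.sqrt a • V) (Real.sqrt d • W) hμ₁ hμ₂
    (by rw [e1, e2, rt_smul, rt_smul, rt_smul, hsum]) (by rw [e2, rt_smul, rt_smul, hprod])
  rw [e1, e2, e3', e4] at h h0
  refine ⟨h0, ?_⟩
  rw [← HH_smul hy hb, ← HH_smul (self_nonneg' V) ha, ← HH_smul (self_nonneg' W) hd]
  simp only [HH, h2]
  rw [rt_fromBlocks, rt_add, rt_smul b, rt_smul a, rt_smul d, ← hsum]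
  rw [rt_smul b, rt_smul a, rt_smul d] at h
  linarith

theorem exists_split {a b c d lam r0 r1 : ℝ} (ha : 0 ≤ a) (hb : 0 ≤ b) (hc : 0 ≤ c) (hd : 0 ≤ d)
    (hac : a + c = 1) (hbd : b + d = 1) (hlam : lam ^ 2 = a * d - b * c)
    (h0 : 0 ≤ r0) (h1 : 0 ≤ r1) :
    ∃ w a1 d1 : ℝ, 0 ≤ w ∧ w ≤ 1 ∧ 0 ≤ a1 ∧ a1 ≤ a ∧ 0 ≤ d1 ∧ d1 ≤ d ∧ (w * lam) ^ 2 = a1 * d1 ∧
      ((1 - w) * lam) ^ 2 = (d - d1) * (a - a1) ∧ w * (r0 + r1) = b * r1 + a1 * r0 + d1 * r1 ∧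
      w ^ 2 * ((a * r0 + b * r1) * (c * r0 + d * r1) - lam ^ 2 * r0 * r1) = b * r1 * (d1 * r1) ∧
      (1 - w) ^ 2 * ((a * r0 + b * r1) * (c * r0 + d * r1) - lam ^ 2 * r0 * r1)
        = c * r0 * ((a - a1) * r0) := by
  have hbc := mul_nonneg hb hc
  have hdiv : ∀ x y : ℝ, 0 ≤ x → 0 ≤ y → lam ^ 2 ≤ x * y →
      lam ^ 2 / y ≤ x ∧ lam ^ 2 / y * y = lam ^ 2 := by
    intro x y hx hy h
    rcases eq_or_lt_of_le hy with h' | h'
    · rw [← h'] at h ⊢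
      refine ⟨by simpa using hx, ?_⟩
      nlinarith [sq_nonneg lam]
    · exact ⟨by rw [div_le_iff₀ h']; exact h, by field_simp⟩
  rcases eq_or_lt_of_le h0 with e0 | h0
  · obtain ⟨k1, k2⟩ := hdiv a d ha hd (by linarith)
    refine ⟨1, lam ^ 2 / d, d, zero_le_one, le_rfl, by positivity, k1, hd, le_rfl,
      by rw [k2]; ring, by ring, ?_, ?_, ?_⟩ <;> rw [← e0]
    · linear_combination -r1 * hbd
    · ring
    · ring
  rcases eq_or_lt_of_le h1 with e1 | h1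
  · obtain ⟨k1, k2⟩ := hdiv d a hd ha (by linarith)
    refine ⟨0, 0, d - lam ^ 2 / a, le_rfl, zero_le_one, le_rfl, ha, by linarith,
      sub_le_self _ (by positivity), by ring, by linear_combination -k2, ?_, ?_, ?_⟩ <;>
      rw [← e1] <;> ring
  rcases eq_or_lt_of_le hc with ec | hc
  · rw [← ec] at hac hlam ⊢
    refine ⟨1, a, d, zero_le_one, le_rfl, ha, le_rfl, hd, le_rfl, by linear_combination hlam,
      by ring, by linear_combination -r0 * hac - r1 * hbd, by rw [hlam]; ring, by ring⟩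
  rcases eq_or_lt_of_le hb with eb | hb
  · rw [← eb] at hlam ⊢
    refine ⟨0, 0, 0, le_rfl, zero_le_one, le_rfl, ha, le_rfl, hd, by ring,
      by linear_combination hlam, by ring, by ring, by rw [hlam]; ring⟩
  obtain ⟨x, hx⟩ : ∃ x, x = a * r0 + b * r1 := ⟨_, rfl⟩
  obtain ⟨y, hy⟩ : ∃ y, y = c * r0 + d * r1 := ⟨_, rfl⟩
  have hx0 : 0 < x := by rw [hx]; positivity
  have hy0 : 0 < y := by rw [hy]; positivity
  have hD : x * y - lam ^ 2 * r0 * r1 = b * r1 * y + c * r0 * x := by rw [hx, hy, hlam]; ring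
  obtain ⟨D, hDd⟩ : ∃ D, D = x * y - lam ^ 2 * r0 * r1 := ⟨_, rfl⟩
  have hD0 : 0 < D := by rw [hDd, hD]; positivity
  obtain ⟨w, hw⟩ : ∃ w, w = b * r1 * y / D := ⟨_, rfl⟩
  have w0 : 0 ≤ w := by rw [hw]; positivity
  have w1 : w * D = b * r1 * y := by rw [hw]; field_simp
  have w2 : (1 - w) * D = c * r0 * x := by linear_combination hDd + hD - w1
  have w3 : 0 ≤ 1 - w := by
    have : 0 ≤ (1 - w) * D := by rw [w2]; positivity
    exact nonneg_of_mul_nonneg_left this hD0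
  have k1 : (w * x - b * r1) * y = w * lam ^ 2 * r0 * r1 := by
    linear_combination w1 - w * hDd
  have k2 : ((1 - w) * y - c * r0) * x = (1 - w) * lam ^ 2 * r0 * r1 := by
    linear_combination w2 - (1 - w) * hDd
  have k3 : 0 ≤ w * x - b * r1 := nonneg_of_mul_nonneg_left (by rw [k1]; positivity) hy0
  have k4 : 0 ≤ (1 - w) * y - c * r0 := nonneg_of_mul_nonneg_left (by rw [k2]; positivity) hx0
  have k5 : a - (w * x - b * r1) / r0 = (1 - w) * x / r0 := by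
    field_simp; linear_combination -hx
  have k6 : d - w * y / r1 = ((1 - w) * y - c * r0) / r1 := by
    field_simp; linear_combination -hy
  rw [← hx, ← hy, ← hDd]
  refine ⟨w, (w * x - b * r1) / r0, w * y / r1, w0, by linarith, by positivity, ?_,
    by positivity, ?_, ?_, ?_, ?_, ?_, ?_⟩
  · rw [← sub_nonneg, k5]; positivity
  · rw [← sub_nonneg, k6]; positivity
  · field_simp; linear_combination -w * k1
  · rw [k5, k6]; field_simp; linear_combination -(1 - w) * k2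
  · field_simp; linear_combination -w * hx - w * hy - w * r0 * hac - w * r1 * hbd
  · field_simp; linear_combination w * w1
  · rw [k5]; field_simp; linear_combination (1 - w) * w2

theorem block_E (V W : Matrix n m ℂ) {a b c d lam μ₁ μ₂ : ℝ} (ha : 0 ≤ a) (hb : 0 ≤ b)
    (hc : 0 ≤ c) (hd : 0 ≤ d) (hl : 0 ≤ lam) (hac : a + c = 1) (hbd : b + d = 1)
    (hlam : lam ^ 2 = a * d - b * c) (hμ₁ : 0 ≤ μ₁) (hμ₂ : 0 ≤ μ₂)
    (hsum : μ₁ + μ₂ = rt (V * Vᴴ) + rt (W * Wᴴ))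
    (hprod : μ₁ * μ₂ = (a * rt (V * Vᴴ) + b * rt (W * Wᴴ)) * (c * rt (V * Vᴴ) + d * rt (W * Wᴴ))
      - lam ^ 2 * rt (V * Vᴴ) * rt (W * Wᴴ)) :
    HH (V * Vᴴ) + HH (W * Wᴴ) + h2 μ₁ μ₂
      ≤ HH (fromBlocks (a • (V * Vᴴ) + b • (W * Wᴴ)) (lam • (V * Wᴴ)) (lam • (W * Vᴴ))
        (c • (V * Vᴴ) + d • (W * Wᴴ))) := by
  obtain ⟨w, a1, d1, w0, w1, a0, a2, d0, d2, k1, k2, k3, k4, k5⟩ := exists_split ha hb hc hd hac
    hbd hlam (rt_nonneg (self_nonneg' V)) (rt_nonneg (self_nonneg' W))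
  have w2 : 0 ≤ 1 - w := by linarith
  obtain ⟨p1, q1⟩ := e3_scaled (self_nonneg' W) V W a0 hb d0 (mul_nonneg w0 hl) k1
    (mul_nonneg w0 hμ₁) (mul_nonneg w0 hμ₂) (by rw [← k3, ← hsum]; ring)
    (by rw [← k4, ← hprod]; ring)
  obtain ⟨p2, q2⟩ := e3_scaled (self_nonneg' V) W V (sub_nonneg.2 d2) hc (sub_nonneg.2 a2)
    (mul_nonneg w2 hl) k2 (mul_nonneg w2 hμ₁) (mul_nonneg w2 hμ₂)
    (by linear_combination (1 - w) * hsum - k3 - rt (V * Vᴴ) * hac - rt (W * Wᴴ) * hbd)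
    (by rw [← k5, ← hprod]; ring)
  rw [← HH_submatrix (Equiv.sumComm n n) p2] at q2
  have p3 := (p2.posSemidef.submatrix (Equiv.sumComm n n)).nonneg
  rw [Equiv.sumComm_apply, fromBlocks_submatrix_sum_swap_sum_swap] at q2 p3
  have h := HH_add p1 p3
  rw [h2_smul w0 hμ₁ hμ₂] at q1
  rw [h2_smul w2 hμ₁ hμ₂] at q2
  rw [fromBlocks_add] at h
  refine le_trans ?_ (h.trans (le_of_eq ?_))
  · have := add_le_add q1 q2
    refine le_trans (le_of_eq ?_) this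
    linear_combination -HH (V * Vᴴ) * hac - HH (W * Wᴴ) * hbd
  · congr 2 <;> module

end Vale.Agent.P358
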