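import Mathlib

/-!
Definitions for the classical capacity of the generalized amplitude-damping channel.
-/

namespace Vale.Agent.P358

open scoped ComplexOrder

/-- density matrices -/
def IsDensity {ι : Type} [Fintype ι] (ρ : Matrix ι ι ℂ) : Prop :=
  ρ.PosSemidef ∧ ρ.trace = 1

/-- von Neumann entropy in bits -/
noncomputable def vN {ι : Type} [Fintype ι] [DecidableEq ι] (ρ : Matrix ι ι ℂ) : ℝ :=
  if h : ρ.IsHermitian then -∑ i, h.eigenvalues i * Real.logb 2 (h.eigenvalues i) else 0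

/-- the generalized amplitude-damping channel, extended linearly to all matrices -/
noncomputable def gadc (γ ν : ℝ) (ρ : Matrix (Fin 2) (Fin 2) ℂ) : Matrix (Fin 2) (Fin 2) ℂ :=
  !![ρ.trace - ((1 - (γ : ℂ)) * ρ 1 1 + (γ : ℂ) * (ν : ℂ) * ρ.trace),
      ((Real.sqrt (1 - γ) : ℝ) : ℂ) * ρ 0 1;
    ((Real.sqrt (1 - γ) : ℝ) : ℂ) * ρ 1 0,
      (1 - (γ : ℂ)) * ρ 1 1 + (γ : ℂ) * (ν : ℂ) * ρ.trace]

/-- the `n`-fold tensor power of a linear qubit map, acting on matrices indexed by bit strings -/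
noncomputable def tensorPow (N : Matrix (Fin 2) (Fin 2) ℂ → Matrix (Fin 2) (Fin 2) ℂ) (n : ℕ)
    (ρ : Matrix (Fin n → Fin 2) (Fin n → Fin 2) ℂ) : Matrix (Fin n → Fin 2) (Fin n → Fin 2) ℂ :=
  Matrix.of fun x y => ∑ u, ∑ v, ρ u v * ∏ k, N (Matrix.single (u k) (v k) 1) (x k) (y k)

/-- the Holevo quantities of all finite ensembles -/
def holevoSet {ι κ : Type} [Fintype ι] [Fintype κ] [DecidableEq κ]
    (N : Matrix ι ι ℂ → Matrix κ κ ℂ) : Set ℝ :=
  {c | ∃ (m : ℕ) (q : Fin m → ℝ) (ρ : Fin m → Matrix ι ι ℂ), (∀ a, 0 ≤ q a) ∧ ∑ a, q a = 1 ∧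
    (∀ a, IsDensity (ρ a)) ∧ c = vN (∑ a, (q a : ℂ) • N (ρ a)) - ∑ a, q a * vN (N (ρ a))}

/-- the Holevo capacity -/
noncomputable def holevo {ι κ : Type} [Fintype ι] [Fintype κ] [DecidableEq κ]
    (N : Matrix ι ι ℂ → Matrix κ κ ℂ) : ℝ :=
  sSup (holevoSet N)

/-- the regularized Holevo capacity -/
noncomputable def capacity (N : Matrix (Fin 2) (Fin 2) ℂ → Matrix (Fin 2) (Fin 2) ℂ) : ℝ :=
  sSup {c | ∃ n : ℕ, 1 ≤ n ∧ c = holevo (tensorPow N n) / n}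

/-- binary entropy in bits -/
noncomputable def hb (p : ℝ) : ℝ := -(p * Real.logb 2 p) - (1 - p) * Real.logb 2 (1 - p)

/-- the function of one real variable whose maximum is the capacity -/
noncomputable def scalarFn (γ ν q : ℝ) : ℝ :=
  hb ((1 - γ) * q + γ * ν)
    - hb ((1 + Real.sqrt (1 - 4 * (γ * ν * (1 - ν) + γ * (1 - γ) * (q - ν) ^ 2))) / 2)

end Vale.Agent.P358
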