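import Vale.Agent.P358.Phi

/-!
The entropy compression inequality for a triangular block matrix.
-/

namespace Vale.Agent.P358

open Matrix Vale.Agent.P350
open scoped ComplexOrder MatrixOrder

variable {n m l : Type} [Fintype n] [Fintype m] [Fintype l] [DecidableEq n] [DecidableEq m]
  [DecidableEq l]

theorem ld_conj {A A' M : Matrix n n ℂ} (h : A * A' = 1) (hM : M.det ≠ 0) :
    ld (A' * M * A') = ld M - ld (A * A) := by
  have h1 : A.det * A'.det = 1 := by rw [← det_mul, h, det_one]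
  have hA : A.det ≠ 0 := left_ne_zero_of_mul_eq_one h1
  have hA' : A'.det ≠ 0 := right_ne_zero_of_mul_eq_one h1
  have h2 := ld_mul hA hA'
  rw [h, ld_one] at h2
  rw [ld_mul (by rw [det_mul]; exact mul_ne_zero hA' hM) hA', ld_mul hA' hM, ld_mul hA hA]
  linarith

theorem posDef_conj {A A' M : Matrix n n ℂ} (h : A * A' = 1) (hA' : A'ᴴ = A') (hM : M.PosDef) :
    (A' * M * A').PosDef := by
  have h1 : A.det * A'.det = 1 := by rw [← det_mul, h, det_one]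
  have hA0 : A'.det ≠ 0 := right_ne_zero_of_mul_eq_one h1
  have := conj_nonneg hM.posSemidef.nonneg A'
  rw [hA'] at this
  rw [this.posSemidef.posDef_iff_det_ne_zero, det_mul, det_mul]
  exact mul_ne_zero (mul_ne_zero hA0 hM.det_pos.ne') hA0

/-- the tangent plane inequality -/
theorem tangent {a α α' : Matrix n n ℂ} {b β β' ν ν' : Matrix m m ℂ} (U : Matrix n m ℂ)
    (ha : a.PosDef) (hb : b.PosDef) (hα : α * α' = 1) (hα' : α'ᴴ = α') (hβ : β * β' = 1)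
    (hβ0 : βᴴ = β) (hβ' : β'ᴴ = β') (hν : ν * ν' = 1) (hν' : ν'ᴴ = ν')
    (hN : β * β + Uᴴ * (α' * α') * U = ν * ν) :
    ld (ν * ν) - ld (β * β) - rt ((β' * β' - ν' * ν') * (b - β * β))
        - rt (α' * α' * U * (ν' * ν') * Uᴴ * (α' * α') * (a - α * α))
      ≤ ld (b + Uᴴ * a⁻¹ * U) - ld b := by
  have hα2 : α' * α = 1 := mul_eq_one_comm.1 hα
  have hβ2 : β' * β = 1 := mul_eq_one_comm.1 hβ
  have hν2 : ν' * ν = 1 := mul_eq_one_comm.1 hν
  obtain ⟨U₁, t₁, hU₁, hU₁', ht₁, h₁⟩ := exists_pos_dg (posDef_conj hβ hβ' hb)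
  obtain ⟨U₂, t₂, hU₂, hU₂', ht₂, h₂⟩ := exists_pos_dg (posDef_conj hα hα' ha)
  have hinv : dg U₂ (fun i => (t₂ i)⁻¹) = α * a⁻¹ * α := by
    rw [← dg_inv hU₂ hU₂' fun i => (ht₂ i).ne', ← h₂]
    apply Matrix.inv_eq_right_inv
    calc α' * a * α' * (α * a⁻¹ * α) = α' * (a * ((α' * α) * a⁻¹)) * α := by
          simp only [Matrix.mul_assoc]
      _ = 1 := by
          rw [hα2, Matrix.one_mul, Matrix.mul_nonsing_inv _ (isUnit_iff_ne_zero.2 ha.det_pos.ne'),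
            Matrix.mul_one, hα2]
  have hI : (β * ν')ᴴ * (β * ν') + (α' * U * ν')ᴴ * (α' * U * ν') = 1 := by
    calc _ = ν' * (β * β + Uᴴ * (α' * α') * U) * ν' := by
          simp only [conjTranspose_mul, hν', hβ0, hα', Matrix.mul_add, Matrix.add_mul,
            Matrix.mul_assoc]
      _ = 1 := by rw [hN, ← Matrix.mul_assoc, hν2, Matrix.one_mul, hν]
  have hM : (β * ν')ᴴ * dg U₁ t₁ * (β * ν') + (α' * U * ν')ᴴ * dg U₂ (fun i => (t₂ i)⁻¹) *
      (α' * U * ν') = ν' * (b + Uᴴ * a⁻¹ * U) * ν' := by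
    rw [← h₁, hinv]
    calc _ = ν' * ((β * β') * b * (β' * β)) * ν'
          + ν' * (Uᴴ * ((α' * α) * a⁻¹ * (α * α')) * U) * ν' := by
          simp only [conjTranspose_mul, hν', hβ0, hα', Matrix.mul_assoc]
      _ = _ := by
          simp only [hβ, hβ2, hα, hα2, Matrix.one_mul, Matrix.mul_one, Matrix.mul_add,
            Matrix.add_mul]
  have hNpd : (b + Uᴴ * a⁻¹ * U).PosDef :=
    hb.add_posSemidef (conj_nonneg ha.inv.posSemidef.nonneg U).posSemidef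
  have hJ := ld_jensen (β * ν') (α' * U * ν') hI hU₁' hU₂' ht₁ (fun i => inv_pos.2 (ht₂ i))
    (by rw [hM]; exact posDef_conj hν hν' hNpd)
  rw [hM, ld_conj hν hNpd.det_pos.ne'] at hJ
  have e1 : ld b - ld (β * β) = rt (dg U₁ fun i => Real.log (t₁ i)) := by
    rw [← ld_conj hβ hb.det_pos.ne', h₁, ld_dg hU₁ ht₁, rt_dg hU₁]
  have hlog : ∀ {k : Type} [Fintype k] [DecidableEq k] {W : Matrix k k ℂ} {t : k → ℝ},
      W * Wᴴ = 1 → (∀ i, 0 < t i) → dg W (fun i => Real.log (t i)) ≤ dg W t - 1 := by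
    intro k _ _ W t hW ht
    rw [← dg_one hW, dg_sub]
    exact dg_le W fun i => Real.log_le_sub_one_of_pos (ht i)
  have hP1 : 0 ≤ 1 - (β * ν') * (β * ν')ᴴ := by
    rw [sub_nonneg]
    have : (β * ν')ᴴ * (β * ν')ᴴᴴ ≤ 1 := by
      rw [conjTranspose_conjTranspose, ← hI]
      exact le_add_of_nonneg_right (self_nonneg _)
    simpa only [conjTranspose_conjTranspose] using contr_of_contr' _ this
  have a1 := rt_mul_le hP1 (hlog hU₁' ht₁)
  have a2 := rt_mul_le (self_nonneg' (α' * U * ν')) (hlog hU₂' ht₂)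
  rw [Matrix.sub_mul, Matrix.one_mul, rt_sub, ← h₁] at a1
  rw [← h₂] at a2
  have e2 : rt ((β * ν')ᴴ * dg U₁ (fun i => Real.log (t₁ i)) * (β * ν'))
      = rt (β * ν' * (β * ν')ᴴ * dg U₁ (fun i => Real.log (t₁ i))) := by
    rw [rt_mul_comm, Matrix.mul_assoc (β * ν')]
  have e3 : rt ((α' * U * ν')ᴴ * dg U₂ (fun i => Real.log (t₂ i)⁻¹) * (α' * U * ν'))
      = -rt (α' * U * ν' * (α' * U * ν')ᴴ * dg U₂ (fun i => Real.log (t₂ i))) := by
    have : dg U₂ (fun i => Real.log (t₂ i)⁻¹) = (-1 : ℝ) • dg U₂ (fun i => Real.log (t₂ i)) := by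
      rw [dg_smul]; simp
    rw [rt_mul_comm, ← Matrix.mul_assoc, this, Matrix.mul_smul, rt_smul]
    ring
  have e4 : rt ((1 - β * ν' * (β * ν')ᴴ) * (β' * b * β' - 1))
      = rt ((β' * β' - ν' * ν') * (b - β * β)) := by
    have h3 : β' * b * β' - 1 = β' * (b - β * β) * β' := by
      rw [Matrix.mul_sub, Matrix.sub_mul, ← Matrix.mul_assoc β' β, hβ2, Matrix.one_mul, hβ]
    have h4 : β' * (1 - β * ν' * (β * ν')ᴴ) * β' = β' * β' - ν' * ν' := by
      rw [Matrix.mul_sub, Matrix.sub_mul, Matrix.mul_one, conjTranspose_mul, hν', hβ0]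
      congr 1
      calc β' * (β * ν' * (ν' * β)) * β' = (β' * β) * ν' * ν' * (β * β') := by
            simp only [Matrix.mul_assoc]
        _ = ν' * ν' := by rw [hβ2, hβ, Matrix.one_mul, Matrix.mul_one]
    rw [h3, ← h4, ← Matrix.mul_assoc, rt_mul_comm]
    simp only [Matrix.mul_assoc]
  have e5 : rt (α' * U * ν' * (α' * U * ν')ᴴ * (α' * a * α' - 1))
      = rt (α' * α' * U * (ν' * ν') * Uᴴ * (α' * α') * (a - α * α)) := by
    have h3 : α' * a * α' - 1 = α' * (a - α * α) * α' := by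
      rw [Matrix.mul_sub, Matrix.sub_mul, ← Matrix.mul_assoc α' α, hα2, Matrix.one_mul, hα]
    rw [h3, ← Matrix.mul_assoc, rt_mul_comm]
    simp only [conjTranspose_mul, hν', hα', Matrix.mul_assoc]
  linarith

theorem intertwine {V : Matrix n m ℂ} {P : Matrix n n ℂ} {Q : Matrix m m ℂ} {r' : n → ℝ}
    {r : m → ℝ} (hP : Pᴴ * P = 1) (hP' : P * Pᴴ = 1) (hQ : Qᴴ * Q = 1) (hQ' : Q * Qᴴ = 1)
    (h1 : V * Vᴴ = dg P r') (h2 : Vᴴ * V = dg Q r) (g : ℝ → ℝ) :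
    dg P (fun i => g (r' i)) * V = V * dg Q (fun j => g (r j)) := by
  have key : ∀ (f : n → ℝ) (f' : m → ℝ), Pᴴ * (dg P f * V - V * dg Q f') * Q
      = diagonal (fun i => (f i : ℂ)) * (Pᴴ * V * Q) - Pᴴ * V * Q * diagonal (fun j => (f' j : ℂ)) := by
    intro f f'
    simp only [dg, Matrix.mul_sub, Matrix.sub_mul, Matrix.mul_assoc]
    rw [← Matrix.mul_assoc Pᴴ P, hP, Matrix.one_mul, hQ, Matrix.mul_one]
  have h0 := key r' r
  rw [← h1, ← h2, Matrix.mul_assoc V, sub_self, Matrix.mul_zero, Matrix.zero_mul] at h0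
  have h3 : Pᴴ * (dg P (fun i => g (r' i)) * V - V * dg Q (fun j => g (r j))) * Q = 0 := by
    rw [key]
    ext i j
    have := congrFun (congrFun h0 i) j
    simp only [Matrix.sub_apply, diagonal_mul, mul_diagonal, Matrix.zero_apply] at this ⊢
    by_cases h : r' i = r j
    · rw [h]; ring
    · have h4 : (Pᴴ * V * Q) i j = 0 := by
        have h5 : ((r' i : ℂ) - r j) * (Pᴴ * V * Q) i j = 0 := by linear_combination -this
        exact (mul_eq_zero.1 h5).resolve_left (sub_ne_zero.2 (by exact_mod_cast h))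
      rw [h4]; ring
  have h4 := congrArg (fun Z => P * Z * Qᴴ) h3
  simp only [Matrix.mul_assoc, hQ', Matrix.mul_one, Matrix.mul_zero, Matrix.zero_mul] at h4
  rw [← Matrix.mul_assoc, hP', Matrix.one_mul] at h4
  exact sub_eq_zero.1 h4

theorem LD_block {x : Matrix n n ℂ} (hx : 0 ≤ x) (V : Matrix n m ℂ) (W : Matrix l m ℂ) {s : ℝ}
    (hs : 0 < s) : LD (fromBlocks (x + V * Vᴴ) (V * Wᴴ) (W * Vᴴ) (W * Wᴴ)) s
      = LD x s + ld ((1 + s⁻¹ • (Wᴴ * W)) + (Real.sqrt s⁻¹ • V)ᴴ * (1 + s⁻¹ • x)⁻¹ *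
        (Real.sqrt s⁻¹ • V)) := by
  have ha := posDef_one_add hx (inv_nonneg.2 hs.le)
  have hau : IsUnit (1 + s⁻¹ • x).det := isUnit_iff_ne_zero.2 ha.det_pos.ne'
  have e1 : 1 + s⁻¹ • fromBlocks (x + V * Vᴴ) (V * Wᴴ) (W * Vᴴ) (W * Wᴴ)
      = fromBlocks (1 + s⁻¹ • x) 0 0 1 + (s⁻¹ • fromRows V W) * fromCols Vᴴ Wᴴ := by
    rw [Matrix.smul_mul, fromRows_mul_fromCols, ← fromBlocks_one, fromBlocks_smul, fromBlocks_smul,
      fromBlocks_add, fromBlocks_add, smul_add, add_assoc]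
  have e2 : (fromBlocks (1 + s⁻¹ • x) 0 0 (1 : Matrix l l ℂ))⁻¹
      = fromBlocks (1 + s⁻¹ • x)⁻¹ 0 0 1 := by
    apply Matrix.inv_eq_right_inv
    simp [fromBlocks_multiply, Matrix.mul_nonsing_inv _ hau]
  have e3 : 1 + fromCols Vᴴ Wᴴ * fromBlocks (1 + s⁻¹ • x)⁻¹ 0 0 (1 : Matrix l l ℂ) *
      (s⁻¹ • fromRows V W) = (1 + s⁻¹ • (Wᴴ * W)) + (Real.sqrt s⁻¹ • V)ᴴ * (1 + s⁻¹ • x)⁻¹ *
        (Real.sqrt s⁻¹ • V) := by
    rw [Matrix.mul_smul, fromCols_mul_fromBlocks, fromCols_mul_fromRows, conjTranspose_smul,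
      Matrix.smul_mul, Matrix.smul_mul, Matrix.mul_smul, smul_smul, star_trivial,
      Real.mul_self_sqrt (inv_nonneg.2 hs.le)]
    simp only [Matrix.mul_zero, add_zero, zero_add, Matrix.mul_one, smul_add]
    abel
  have hpd : ((1 + s⁻¹ • (Wᴴ * W)) + (Real.sqrt s⁻¹ • V)ᴴ * (1 + s⁻¹ • x)⁻¹ *
      (Real.sqrt s⁻¹ • V)).PosDef := (posDef_one_add (self_nonneg W)
        (inv_nonneg.2 hs.le)).add_posSemidef (conj_nonneg ha.inv.posSemidef.nonneg _).posSemidef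
  rw [LD, LD, ld, ld, ld, e1, det_add_mul _ _ (by simpa [det_fromBlocks_zero₂₁] using hau), e2, e3,
    det_fromBlocks_zero₂₁, det_one, mul_one, norm_mul,
    Real.log_mul (norm_ne_zero_iff.2 ha.det_pos.ne') (norm_ne_zero_iff.2 hpd.det_pos.ne')]

theorem pointwise {x : Matrix n n ℂ} (hx : 0 ≤ x) {V : Matrix n m ℂ} (W : Matrix l m ℂ)
    {P : Matrix n n ℂ} {Q : Matrix m m ℂ} {r' : n → ℝ}
    {r : m → ℝ} (hP : Pᴴ * P = 1) (hP' : P * Pᴴ = 1) (hQ : Qᴴ * Q = 1) (hQ' : Q * Qᴴ = 1)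
    (h1 : V * Vᴴ = dg P r') (h2 : Vᴴ * V = dg Q r) {p q μ₁ μ₂ : ℝ} (hp : 0 < p) (hq : 0 < q)
    (hμ₁ : 0 < μ₁) (hμ₂ : 0 < μ₂) (hsum : μ₁ + μ₂ = p + q + 1) (hprod : μ₁ * μ₂ = p * q)
    {s : ℝ} (hs : 0 < s) :
    LD x s + LD (W * Wᴴ) s + ∑ j, (Real.log (1 + μ₁ * r j / s) + Real.log (1 + μ₂ * r j / s)
        - Real.log (1 + p * r j / s) - Real.log (1 + q * r j / s))
      - ∑ j, kap q p μ₁ μ₂ (r j) s * (((Qᴴ * (Wᴴ * W) * Q) j j).re - q * r j)
      - ∑ i, kap p q μ₁ μ₂ (r' i) s * (((Pᴴ * x * P) i i).re - p * r' i)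
      ≤ LD (fromBlocks (x + V * Vᴴ) (V * Wᴴ) (W * Vᴴ) (W * Wᴴ)) s := by
  have hr : ∀ j, 0 ≤ r j := nonneg_of_dg hQ (h2 ▸ self_nonneg V)
  have hr' : ∀ i, 0 ≤ r' i := nonneg_of_dg hP (h1 ▸ self_nonneg' V)
  have hsi : 0 ≤ s⁻¹ := inv_nonneg.2 hs.le
  set N : ℝ → ℝ := fun t => (1 + μ₁ * t / s) * (1 + μ₂ * t / s) / (1 + p * t / s) with hNdef
  have hpos : ∀ c t : ℝ, 0 < c → 0 ≤ t → 0 < 1 + c * t / s := fun c t hc ht => by positivity
  have hN0 : ∀ t, 0 ≤ t → 0 < N t := fun t ht =>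
    div_pos (mul_pos (hpos _ _ hμ₁ ht) (hpos _ _ hμ₂ ht)) (hpos _ _ hp ht)
  have sq1 : ∀ {k : Type} [Fintype k] [DecidableEq k] {Z : Matrix k k ℂ} {f : k → ℝ},
      Zᴴ * Z = 1 → Z * Zᴴ = 1 → (∀ i, 0 < f i) →
      dg Z (fun i => Real.sqrt (f i)) * dg Z (fun i => (Real.sqrt (f i))⁻¹) = 1 ∧
      dg Z (fun i => Real.sqrt (f i)) * dg Z (fun i => Real.sqrt (f i)) = dg Z f ∧
      dg Z (fun i => (Real.sqrt (f i))⁻¹) * dg Z (fun i => (Real.sqrt (f i))⁻¹)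
        = dg Z fun i => (f i)⁻¹ := by
    intro k _ _ Z f hZ hZ' hf
    rw [dg_mul hZ, dg_mul hZ, dg_mul hZ, ← dg_one hZ']
    refine ⟨congrArg _ (funext fun i => ?_), congrArg _ (funext fun i => ?_),
      congrArg _ (funext fun i => ?_)⟩
    · exact mul_inv_cancel₀ (Real.sqrt_pos.2 (hf i)).ne'
    · exact Real.mul_self_sqrt (hf i).le
    · rw [← mul_inv, Real.mul_self_sqrt (hf i).le]
  obtain ⟨a1, a2, a3⟩ := sq1 hP hP' fun i => hpos p _ hp (hr' i)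
  obtain ⟨b1, b2, b3⟩ := sq1 hQ hQ' fun j => hpos q _ hq (hr j)
  obtain ⟨c1, c2, c3⟩ := sq1 hQ hQ' fun j => hN0 _ (hr j)
  have hU : ∀ {k : Type} [Fintype k] (A : Matrix k n ℂ) (B : Matrix n n ℂ),
      A * ((Real.sqrt s⁻¹ • V) * ((Real.sqrt s⁻¹ • V)ᴴ * B)) = s⁻¹ • (A * (V * Vᴴ) * B) := by
    intro k _ A B
    simp only [conjTranspose_smul, Matrix.smul_mul, Matrix.mul_smul, smul_smul, star_trivial,
      Real.mul_self_sqrt hsi, Matrix.mul_assoc]
  have hT := tangent (Real.sqrt s⁻¹ • V) (posDef_one_add hx hsi)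
    (posDef_one_add (self_nonneg W) hsi) a1 (dg_herm _ _) b1 (dg_herm _ _) (dg_herm _ _) c1
    (dg_herm _ _) (by
      rw [a3, b2, c2, Matrix.mul_assoc, Matrix.mul_smul,
        intertwine hP hP' hQ hQ' h1 h2 fun t => (1 + p * t / s)⁻¹, conjTranspose_smul,
        Matrix.smul_mul, Matrix.mul_smul, smul_smul, star_trivial, Real.mul_self_sqrt hsi,
        ← Matrix.mul_assoc, h2, dg_mul hQ, dg_smul, dg_add]
      refine congrArg _ (funext fun j => ?_)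
      have := hpos p _ hp (hr j)
      have e : (1 + μ₁ * r j / s) * (1 + μ₂ * r j / s)
          = (1 + q * r j / s) * (1 + p * r j / s) + r j / s := by
        linear_combination (r j / s) * hsum + (r j / s) ^ 2 * hprod
      simp only [hNdef]
      rw [e]
      generalize 1 + p * r j / s = d at *
      field_simp)
  rw [a2, a3, b2, b3, c2, c3, ld_dg hQ (fun j => hN0 _ (hr j)),
    ld_dg hQ (fun j => hpos q _ hq (hr j))] at hT
  rw [LD_block hx V W hs, LD_comm W Wᴴ]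
  have e1 : ∑ j, (Real.log (1 + μ₁ * r j / s) + Real.log (1 + μ₂ * r j / s)
        - Real.log (1 + p * r j / s) - Real.log (1 + q * r j / s))
      = ∑ j, Real.log (N (r j)) - ∑ j, Real.log (1 + q * r j / s) := by
    rw [← Finset.sum_sub_distrib]
    refine Finset.sum_congr rfl fun j _ => ?_
    simp only [hNdef]
    rw [Real.log_div (mul_pos (hpos _ _ hμ₁ (hr j)) (hpos _ _ hμ₂ (hr j))).ne'
      (hpos _ _ hp (hr j)).ne', Real.log_mul (hpos _ _ hμ₁ (hr j)).ne' (hpos _ _ hμ₂ (hr j)).ne']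
  have hlin : ∀ {k : Type} [Fintype k] [DecidableEq k] {Z : Matrix k k ℂ} (f t : k → ℝ) (c : ℝ)
      (Y : Matrix k k ℂ), Zᴴ * Z = 1 → Z * Zᴴ = 1 →
      rt (dg Z f * (1 + s⁻¹ • Y - dg Z fun i => 1 + c * t i / s))
        = ∑ i, (f i * s⁻¹) * (((Zᴴ * Y * Z) i i).re - c * t i) := by
    intro k _ _ Z f t c Y hZ hZ'
    have : 1 + s⁻¹ • Y - dg Z (fun i => 1 + c * t i / s)
        = s⁻¹ • (Y - dg Z fun i => c * t i) := by
      have e : dg Z (fun i => 1 + c * t i / s) = 1 + s⁻¹ • dg Z fun i => c * t i := by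
        rw [one_add_dg hZ']
        simp only [div_eq_inv_mul]
      rw [e, smul_sub]
      abel
    rw [this, Matrix.mul_smul, rt_smul, rt_dg_mul, Finset.mul_sum]
    refine Finset.sum_congr rfl fun i _ => ?_
    rw [Matrix.mul_sub, Matrix.sub_mul, conj_dg hZ, Matrix.sub_apply, diagonal_apply_eq,
      Complex.sub_re, Complex.ofReal_re]
    ring
  have e2 : dg P (fun i => (1 + p * r' i / s)⁻¹) * (Real.sqrt s⁻¹ • V) *
      dg Q (fun j => (N (r j))⁻¹) * (Real.sqrt s⁻¹ • V)ᴴ * dg P (fun i => (1 + p * r' i / s)⁻¹)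
      = dg P fun i => s⁻¹ * ((1 + p * r' i / s)⁻¹ * (N (r' i))⁻¹ * r' i *
          (1 + p * r' i / s)⁻¹) := by
    rw [Matrix.mul_assoc _ (Real.sqrt s⁻¹ • V), Matrix.smul_mul,
      ← intertwine hP hP' hQ hQ' h1 h2 fun t => (N t)⁻¹, ← Matrix.mul_smul, ← Matrix.mul_assoc,
      Matrix.mul_assoc, Matrix.mul_assoc, hU, h1, dg_mul hP, dg_mul hP, dg_mul hP, dg_smul]
  rw [e2, dg_sub, hlin _ _ _ _ hQ hQ', hlin _ _ _ _ hP hP'] at hT
  have e3 : ∀ t, 0 ≤ t → ((1 + q * t / s)⁻¹ - (N t)⁻¹) * s⁻¹ = kap q p μ₁ μ₂ t s := by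
    intro t ht
    have := hpos _ _ hμ₁ ht
    have := hpos _ _ hμ₂ ht
    have := hpos _ _ hp ht
    have := hpos _ _ hq ht
    simp only [hNdef, kap]
    field_simp
  have e4 : ∀ t, 0 ≤ t → s⁻¹ * ((1 + p * t / s)⁻¹ * (N t)⁻¹ * t * (1 + p * t / s)⁻¹) * s⁻¹
      = kap p q μ₁ μ₂ t s := by
    intro t ht
    have b1 : 0 < s + μ₁ * t := by positivity
    have b2 : 0 < s + μ₂ * t := by positivity
    have b3 : 0 < s + p * t := by positivity
    have e : (s + μ₁ * t) * (s + μ₂ * t) = (s + q * t) * (s + p * t) + s * t := by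
      linear_combination s * t * hsum + t ^ 2 * hprod
    simp only [hNdef, kap]
    field_simp
    linear_combination -e
  simp only [fun j => e3 _ (hr j), fun i => e4 _ (hr' i)] at hT
  rw [e1, LD, LD]
  linarith

theorem lin_term {x : Matrix n n ℂ} (hx : 0 ≤ x) {P : Matrix n n ℂ} (hP' : P * Pᴴ = 1)
    {r : n → ℝ} (hr : ∀ i, 0 ≤ r i) {p q μ₁ μ₂ : ℝ} (hp : 0 < p)
    (hμ₁ : 0 < μ₁) (hμ₂ : 0 < μ₂) (hne : μ₁ ≠ μ₂) (hsum : μ₁ + μ₂ = p + q + 1)
    (hprod : μ₁ * μ₂ = p * q) (htr : rt x = p * ∑ i, r i) :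
    ∃ g : ℝ → ℝ, Prof g 0 0 ∧ ∀ s, 0 < s →
      ∑ i, kap p q μ₁ μ₂ (r i) s * (((Pᴴ * x * P) i i).re - p * r i) ≤ g s := by
  obtain ⟨e, he⟩ := prof_kap (p' := q) hp hμ₁ hμ₂ hne
  have hpos : ∀ i, 0 < (if r i = 0 then 1 else r i) := by
    intro i
    split_ifs with h
    · exact one_pos
    · exact lt_of_le_of_ne (hr i) (Ne.symm h)
  have h0 : ∑ i, (((Pᴴ * x * P) i i).re - p * r i) = 0 := by
    have := rt_dg_mul P (fun _ => 1) x
    rw [dg_one hP', Matrix.one_mul, htr] at this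
    simp only [one_mul] at this
    rw [Finset.sum_sub_distrib, ← this, Finset.mul_sum, sub_self]
  have := Prof.sum Finset.univ fun i =>
    (he _ (hpos i)).smul (((Pᴴ * x * P) i i).re - p * r i)
  rw [← Finset.sum_mul, ← Finset.sum_mul, h0, zero_mul, zero_mul] at this
  refine ⟨_, this, fun s hs => Finset.sum_le_sum fun i _ => ?_⟩
  split_ifs with h
  · rw [h, kap_zero _ _ _ _ hs, zero_mul, mul_zero, sub_zero]
    exact mul_nonneg (Complex.nonneg_iff.1 (conj_nonneg hx P).posSemidef.diag_nonneg).1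
      (kap_nonneg hp hμ₁ hμ₂ hsum hprod zero_le_one hs)
  · rw [mul_comm]

omit [DecidableEq n] [DecidableEq m] [DecidableEq l] in
theorem block_nonneg {x : Matrix n n ℂ} (hx : 0 ≤ x) (V : Matrix n m ℂ) (W : Matrix l m ℂ) :
    0 ≤ fromBlocks (x + V * Vᴴ) (V * Wᴴ) (W * Vᴴ) (W * Wᴴ) := by
  classical
  have := add_nonneg (fromBlocks_diag_nonneg hx (le_refl (0 : Matrix l l ℂ)))
    (self_nonneg' (fromRows V W))
  rwa [conjTranspose_fromRows_eq_fromCols_conjTranspose, fromRows_mul_fromCols, fromBlocks_add,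
    zero_add, zero_add, zero_add] at this

theorem eta_mul {c r : ℝ} (hc : 0 < c) (hr : 0 ≤ r) :
    c * r * Real.log (c * r) = c * (r * Real.log r) + c * Real.log c * r := by
  rcases eq_or_lt_of_le hr with h | h
  · simp [← h]
  · rw [Real.log_mul hc.ne' h.ne']; ring

theorem e3_generic {x : Matrix n n ℂ} (hx : 0 ≤ x) (V : Matrix n m ℂ) (W : Matrix l m ℂ)
    {p q μ₁ μ₂ : ℝ} (hp : 0 < p) (hq : 0 < q)
    (hμ₁ : 0 < μ₁) (hμ₂ : 0 < μ₂) (hsum : μ₁ + μ₂ = p + q + 1) (hprod : μ₁ * μ₂ = p * q)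
    (h1 : rt x = p * rt (V * Vᴴ)) (h2 : rt (W * Wᴴ) = q * rt (V * Vᴴ)) :
    phi (fromBlocks (x + V * Vᴴ) (V * Wᴴ) (W * Vᴴ) (W * Wᴴ))
      ≤ phi x + phi (V * Vᴴ) + phi (W * Wᴴ) + (μ₁ * Real.log μ₁ + μ₂ * Real.log μ₂
        - p * Real.log p - q * Real.log q) * rt (V * Vᴴ) := by
  obtain ⟨P, r', hP, hP', e1⟩ := exists_dg (herm_of_nonneg (self_nonneg' V))
  obtain ⟨Q, r, hQ, hQ', e2⟩ := exists_dg (herm_of_nonneg (self_nonneg V))
  have hr : ∀ j, 0 ≤ r j := nonneg_of_dg hQ (e2 ▸ self_nonneg V)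
  have hr' : ∀ i, 0 ≤ r' i := nonneg_of_dg hP (e1 ▸ self_nonneg' V)
  have hne : μ₁ ≠ μ₂ := by
    intro h
    rw [← h] at hsum hprod
    nlinarith [sq_nonneg (p - q)]
  have t1 : rt (V * Vᴴ) = ∑ i, r' i := by rw [e1, rt_dg hP]
  have t2 : rt (V * Vᴴ) = ∑ j, r j := by rw [rt_mul_comm, e2, rt_dg hQ]
  have t3 : phi (V * Vᴴ) = ∑ j, r j * Real.log (r j) := by rw [phi_comm, e2, phi_dg hQ hQ' hr]
  obtain ⟨g₁, hg₁, hg₁'⟩ := lin_term hx hP' hr' hp hμ₁ hμ₂ hne hsum hprod (by rw [h1, t1])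
  obtain ⟨g₂, hg₂, hg₂'⟩ := lin_term (self_nonneg W) hQ' hr (q := p) hq hμ₁ hμ₂ hne
    (by linarith) (by linarith) (by rw [rt_mul_comm, h2, t2])
  have hS := Prof.sum Finset.univ fun j => (((prof_L (mul_nonneg hμ₁.le (hr j))).add
    (prof_L (mul_nonneg hμ₂.le (hr j)))).sub (prof_L (mul_nonneg hp.le (hr j)))).sub
    (prof_L (mul_nonneg hq.le (hr j)))
  have h := (prof_LD (block_nonneg hx V W)).le
    (((((prof_LD hx).add (prof_LD (self_nonneg' W))).add hS).sub hg₂).sub hg₁) (by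
      have : ∑ j, (μ₁ * r j + μ₂ * r j - p * r j - q * r j) = ∑ j, r j :=
        Finset.sum_congr rfl fun j _ => by linear_combination r j * hsum
      rw [rt_fromBlocks, rt_add, this, ← t2]; ring) (fun s hs => by
      have := pointwise hx W hP hP' hQ hQ' e1 e2 hp hq hμ₁ hμ₂ hsum hprod hs
      linarith [hg₁' s hs, hg₂' s hs])
  have e3 : ∑ j, (μ₁ * r j * Real.log (μ₁ * r j) + μ₂ * r j * Real.log (μ₂ * r j)
      - p * r j * Real.log (p * r j) - q * r j * Real.log (q * r j))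
      = ∑ j, r j * Real.log (r j) + (μ₁ * Real.log μ₁ + μ₂ * Real.log μ₂
        - p * Real.log p - q * Real.log q) * ∑ j, r j := by
    rw [Finset.mul_sum, ← Finset.sum_add_distrib]
    refine Finset.sum_congr rfl fun j _ => ?_
    rw [eta_mul hμ₁ (hr j), eta_mul hμ₂ (hr j), eta_mul hp (hr j), eta_mul hq (hr j)]
    linear_combination (r j * Real.log (r j)) * hsum
  rw [e3, ← t2, ← t3] at h
  linarith

theorem eta_pair {a b c d : ℝ} (hs : a + b = c + d) (hp : a * b = c * d) :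
    a * Real.log a + b * Real.log b = c * Real.log c + d * Real.log d := by
  have : (a - c) * (a - d) = 0 := by linear_combination a * hs - hp
  rcases mul_eq_zero.1 this with h | h
  · rw [show a = c by linarith, show b = d by linarith]
  · rw [show a = d by linarith, show b = c by linarith, add_comm]

theorem e3 {x : Matrix n n ℂ} (hx : 0 ≤ x) (V : Matrix n m ℂ) (W : Matrix l m ℂ)
    {μ₁ μ₂ : ℝ} (hμ₁ : 0 ≤ μ₁) (hμ₂ : 0 ≤ μ₂)
    (hsum : μ₁ + μ₂ = rt x + rt (V * Vᴴ) + rt (W * Wᴴ)) (hprod : μ₁ * μ₂ = rt x * rt (W * Wᴴ)) :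
    phi (fromBlocks (x + V * Vᴴ) (V * Wᴴ) (W * Vᴴ) (W * Wᴴ))
      ≤ (phi x - rt x * Real.log (rt x)) + (phi (V * Vᴴ) - rt (V * Vᴴ) * Real.log (rt (V * Vᴴ)))
        + (phi (W * Wᴴ) - rt (W * Wᴴ) * Real.log (rt (W * Wᴴ)))
        + (μ₁ * Real.log μ₁ + μ₂ * Real.log μ₂) := by
  rcases eq_or_lt_of_le (rt_nonneg (self_nonneg' V)) with hα | hα
  · have hV : V = 0 := self_mul_conjTranspose_eq_zero.1 (eq_zero_of_rt (self_nonneg' V) hα.symm)
    rw [← hα, add_zero] at hsum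
    rw [eta_pair hsum hprod]
    simp only [hV, conjTranspose_zero, Matrix.mul_zero, Matrix.zero_mul, add_zero, phi_zero,
      rt_zero]
    rw [phi_fromBlocks_diag hx (self_nonneg' W)]
    linarith
  rcases eq_or_lt_of_le (rt_nonneg (self_nonneg' W)) with hy | hy
  · have hW : W = 0 := self_mul_conjTranspose_eq_zero.1 (eq_zero_of_rt (self_nonneg' W) hy.symm)
    rw [← hy] at hsum hprod
    rw [eta_pair hsum (by rw [hprod]; ring)]
    simp only [hW, conjTranspose_zero, Matrix.mul_zero, Matrix.zero_mul, phi_zero, rt_zero]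
    rw [phi_fromBlocks_diag (add_nonneg hx (self_nonneg' V)) le_rfl, phi_zero]
    have := phi_add_le hx (self_nonneg' V)
    rw [rt_add] at this
    linarith
  rcases eq_or_lt_of_le (rt_nonneg hx) with hξ | hξ
  · have hx0 : x = 0 := eq_zero_of_rt hx hξ.symm
    rw [← hξ] at hsum hprod
    rw [eta_pair (c := 0) (d := rt (V * Vᴴ) + rt (W * Wᴴ)) (by linarith) (by rw [hprod]; ring)]
    rw [hx0, zero_add, ← fromRows_mul_fromCols, ← conjTranspose_fromRows_eq_fromCols_conjTranspose,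
      phi_comm, conjTranspose_fromRows_eq_fromCols_conjTranspose, fromCols_mul_fromRows,
      phi_zero, rt_zero, phi_comm V, phi_comm W, rt_mul_comm V, rt_mul_comm W]
    have := phi_add_le (self_nonneg V) (self_nonneg W)
    rw [rt_add] at this
    linarith
  have hm : 0 < μ₁ * μ₂ := by rw [hprod]; positivity
  have hμ₁' : 0 < μ₁ := lt_of_le_of_ne hμ₁ fun h => by simp [← h] at hm
  have hμ₂' : 0 < μ₂ := lt_of_le_of_ne hμ₂ fun h => by simp [← h] at hm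
  have h := e3_generic hx V W (div_pos hξ hα) (div_pos hy hα) (div_pos hμ₁' hα) (div_pos hμ₂' hα)
    (by field_simp; linarith) (by field_simp; linarith) (by field_simp) (by field_simp)
  rw [Real.log_div hξ.ne' hα.ne', Real.log_div hy.ne' hα.ne', Real.log_div hμ₁'.ne' hα.ne',
    Real.log_div hμ₂'.ne' hα.ne'] at h
  refine h.trans (le_of_eq ?_)
  generalize rt (V * Vᴴ) = α at *
  field_simp
  linear_combination (-Real.log α) * hsum

end Vale.Agent.P358
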