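import Vale.Agent.P358.Step

/-!
Additivity of the Holevo capacity of the generalized amplitude-damping channel.
-/

namespace Vale.Agent.P358

open Matrix Vale.Agent.P350
open scoped ComplexOrder MatrixOrder

theorem vN_eq {α : Type} [Fintype α] [DecidableEq α] (X : Matrix α α ℂ) :
    vN X = -phi X / Real.log 2 := by
  rw [vN, phi]
  split_ifs with h
  · simp only [Real.logb, neg_div, Finset.sum_div, mul_div_assoc]
  · simp

theorem hb_eq (p : ℝ) : hb p = Real.binEntropy p / Real.log 2 := by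
  simp only [hb, Real.binEntropy, Real.logb, Real.log_inv]
  ring

theorem scalarFn_eq (γ ν q : ℝ) :
    scalarFn γ ν q = (Real.binEntropy ((1 - γ) * q + γ * ν) - gg γ ν q) / Real.log 2 := by
  rw [scalarFn, hb_eq, hb_eq, gg, del, sub_div]

theorem mem_holevoSet {ι κ A : Type} [Fintype ι] [Fintype κ] [DecidableEq κ] [Fintype A]
    (N : Matrix ι ι ℂ → Matrix κ κ ℂ) (q : A → ℝ) (ρ : A → Matrix ι ι ℂ) (h0 : ∀ a, 0 ≤ q a)
    (h1 : ∑ a, q a = 1) (h2 : ∀ a, IsDensity (ρ a)) :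
    vN (∑ a, (q a : ℂ) • N (ρ a)) - ∑ a, q a * vN (N (ρ a)) ∈ holevoSet N := by
  have e := (Fintype.equivFin A).symm
  refine ⟨_, q ∘ e, ρ ∘ e, fun a => h0 _, (e.sum_comp q).trans h1, fun a => h2 _, ?_⟩
  rw [← e.sum_comp, ← e.sum_comp]
  rfl

theorem phi_two {X : Matrix (Fin 2) (Fin 2) ℂ} (hX : 0 ≤ X) {x : ℝ} (h1 : rt X = 1)
    (h2 : X.det = (x * (1 - x) : ℝ)) : -phi X = Real.binEntropy x := by
  obtain ⟨U, t, hU, hU', rfl⟩ := exists_dg (herm_of_nonneg hX)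
  rw [rt_dg hU, Fin.sum_univ_two] at h1
  rw [det_dg hU, Fin.prod_univ_two, Complex.ofReal_inj] at h2
  rw [phi_dg hU hU' (nonneg_of_dg hU hX), Fin.sum_univ_two,
    eta_pair (c := x) (d := 1 - x) (by linarith) h2, Real.binEntropy]
  simp only [Real.log_inv]
  ring

theorem trace_gadc (γ ν : ℝ) (ρ : Matrix (Fin 2) (Fin 2) ℂ) : trace (gadc γ ν ρ) = trace ρ := by
  rw [trace_fin_two]; simp [gadc]

variable {γ ν : ℝ} (hγ : γ ∈ Set.Icc (0 : ℝ) 1) (hν : ν ∈ Set.Icc (0 : ℝ) 1)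
include hγ hν

theorem gadc_nonneg {ρ : Matrix (Fin 2) (Fin 2) ℂ} (h : 0 ≤ ρ) : 0 ≤ gadc γ ν ρ := by
  rw [gadc_kraus hγ hν]
  exact Finset.sum_nonneg fun j _ => conj_nonneg' h _

theorem scalar_mem {q : ℝ} (hq : q ∈ Set.Icc (0 : ℝ) 1) :
    scalarFn γ ν q ∈ holevoSet (gadc γ ν) := by
  have h : ∀ x : ℝ, 0 ≤ x → ((√x : ℝ) : ℂ) ^ 2 = x := fun x hx => by
    exact_mod_cast Real.sq_sqrt hx
  have h1 := h _ hq.1
  have h2 := h _ (sub_nonneg.2 hq.2)
  have h3 := h _ (sub_nonneg.2 hγ.2)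
  have h4 := h _ (sub_nonneg.2 (del_le (ν := ν) hγ hq))
  push_cast at h2 h3 h4
  have hd : (del γ ν q : ℂ) = γ * ν * (1 - ν) + γ * (1 - γ) * (q - ν) ^ 2 := by simp [del]
  set ρ : Fin 2 → Matrix (Fin 2) (Fin 2) ℂ := fun a =>
    !![((√(1 - q) : ℝ) : ℂ), 0; ![1, -1] a * (√q : ℝ), 0] *
      !![((√(1 - q) : ℝ) : ℂ), 0; ![1, -1] a * (√q : ℝ), 0]ᴴ with hρ
  have hn : ∀ a, 0 ≤ ρ a := fun a => self_nonneg' _
  have ht : ∀ a, trace (ρ a) = 1 := by
    intro a
    fin_cases a <;> simp [hρ, trace_fin_two, mul_apply, vecMul, dotProduct] <;>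
      linear_combination h1 + h2
  have hm := mem_holevoSet (gadc γ ν) (fun _ => 1 / 2) ρ (fun _ => by norm_num) (by simp)
    fun a => ⟨(hn a).posSemidef, ht a⟩
  have e1 : ∀ a, -phi (gadc γ ν (ρ a)) = gg γ ν q := by
    intro a
    refine phi_two (gadc_nonneg hγ hν (hn a)) (by rw [rt, trace_gadc, ht, Complex.one_re]) ?_
    rw [det_fin_two]
    simp only [gadc, ht]
    fin_cases a <;> simp [hρ, mul_apply, vecMul, dotProduct] <;>
      linear_combination (1 / 4) * h4 - hd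
        + ((1 - (γ : ℂ)) * (1 - 2 * γ * ν - (1 - γ) * ((√q : ℝ) ^ 2 + q))
          - (√(1 - γ) : ℝ) ^ 2 * (√(1 - q) : ℝ) ^ 2) * h1
        - q * (√(1 - γ) : ℝ) ^ 2 * h2 - q * (1 - q) * h3
  have e2 : -phi (∑ a, ((1 / 2 : ℝ) : ℂ) • gadc γ ν (ρ a))
      = Real.binEntropy ((1 - γ) * q + γ * ν) := by
    refine phi_two (Finset.sum_nonneg fun a _ => by
      rw [Complex.coe_smul]; exact smul_nonneg' (gadc_nonneg hγ hν (hn a)) (by norm_num)) ?_ ?_
    · simp [rt, trace_gadc, ht]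
      norm_num
    · rw [det_fin_two]
      simp only [gadc, ht, Fin.sum_univ_two]
      simp [hρ, mul_apply, vecMul, dotProduct]
      linear_combination ((1 - (γ : ℂ)) * (1 - 2 * γ * ν - (1 - γ) * ((√q : ℝ) ^ 2 + q))) * h1
  simp only [vN_eq, e1, e2] at hm
  convert hm using 1
  rw [scalarFn_eq]
  simp
  ring

theorem prod_mem {c : ℝ} (hc : c ∈ holevoSet (gadc γ ν)) (n : ℕ) :
    n * c ∈ holevoSet (tensorPow (gadc γ ν) n) := by
  obtain ⟨m, q, ρ, h0, h1, h2, rfl⟩ := hc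
  have hn := fun a => gadc_nonneg hγ hν (h2 a).1.nonneg
  have ht : ∀ a, rt (gadc γ ν (ρ a)) = 1 := fun a => by
    rw [rt, trace_gadc, (h2 a).2, Complex.one_re]
  have hm := mem_holevoSet (tensorPow (gadc γ ν) n) (fun s : Fin n → Fin m => ∏ k, q (s k))
    (fun s => piT fun k => ρ (s k)) (fun s => Finset.prod_nonneg fun k _ => h0 _)
    (by rw [sum_prod_pi fun _ a => q a]; simp [h1]) fun s =>
      ⟨(piT_nonneg fun k => (h2 _).1.nonneg).posSemidef, by simp [trace_piT, fun a => (h2 a).2]⟩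
  simp only [tensorPow_piT (gadc_kraus hγ hν), Complex.ofReal_prod] at hm
  rw [← piT_sum (fun _ a => (q a : ℂ)) fun _ a => gadc γ ν (ρ a)] at hm
  convert hm using 1
  simp only [vN_eq]
  rw [phi_piT (fun _ => Finset.sum_nonneg fun a _ => by
      rw [Complex.coe_smul]; exact smul_nonneg' (hn a) (h0 a))
    (fun _ => by simp only [Complex.coe_smul, rt_sum, rt_smul, ht, mul_one, h1])]
  simp only [fun s : Fin n → Fin m => phi_piT (fun k => hn (s k)) fun k => ht (s k),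
    ← Finset.sum_neg_distrib, Finset.sum_div]
  rw [sum_prod_mul_sum (fun _ => q) (fun _ a => -phi (gadc γ ν (ρ a)) / Real.log 2) fun _ => h1]
  simp
  ring

omit hγ hν in
theorem scalar_compact : IsCompact (scalarFn γ ν '' Set.Icc 0 1) := by
  refine isCompact_Icc.image ?_
  rw [funext (scalarFn_eq γ ν)]
  unfold gg del
  fun_prop

theorem le_scalar (n : ℕ) {c : ℝ} (hc : c ∈ holevoSet (tensorPow (gadc γ ν) n)) :
    c ≤ n * sSup (scalarFn γ ν '' Set.Icc 0 1) := by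
  obtain ⟨m, q, ρ, h0, h1, h2, rfl⟩ := hc
  have hl : 0 < Real.log 2 := Real.log_pos one_lt_two
  have hn := fun a => tp_nonneg hγ hν (h2 a).1.nonneg
  have ht : ∀ a, rt (tensorPow (gadc γ ν) n (ρ a)) = 1 := fun a => by
    rw [rt, trace_tensorPow, (h2 a).2, Complex.one_re]
  have e : ∀ a, tensorPow (gadc γ ν) n (q a • ρ a) = q a • tensorPow (gadc γ ν) n (ρ a) := by
    intro a
    simp only [tensorPow_kraus (gadc_kraus hγ hν), Matrix.mul_smul, Matrix.smul_mul,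
      Finset.smul_sum]
  have h := upper hγ hν (F := sSup (scalarFn γ ν '' Set.Icc 0 1) * Real.log 2) (fun x hx => by
      rw [← div_le_iff₀ hl, ← scalarFn_eq]
      exact le_csSup scalar_compact.bddAbove ⟨x, hx, rfl⟩) n (Fin m) (fun a => q a • ρ a)
    (fun a => smul_nonneg' (h2 a).1.nonneg (h0 a)) (by simp only [e, rt_smul, ht, mul_one, h1])
  simp only [e, fun a => HH_smul (hn a) (h0 a)] at h
  simp only [HH, rt_sum, rt_smul, ht, mul_one, h1, Real.log_one, mul_zero, zero_sub] at h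
  simp only [vN_eq, Complex.coe_smul, ← mul_div_assoc, ← Finset.sum_div, ← sub_div]
  rw [div_le_iff₀ hl]
  linarith

theorem main : (∀ n, BddAbove (holevoSet (tensorPow (gadc γ ν) n))) ∧
    BddAbove (holevoSet (gadc γ ν)) ∧
    (∀ n : ℕ, holevo (tensorPow (gadc γ ν) n) = n * holevo (gadc γ ν)) ∧
    capacity (gadc γ ν) = holevo (gadc γ ν) ∧
    IsGreatest (scalarFn γ ν '' Set.Icc 0 1) (capacity (gadc γ ν)) := by
  have hne : (scalarFn γ ν '' Set.Icc 0 1).Nonempty := ⟨_, 0, ⟨le_rfl, zero_le_one⟩, rfl⟩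
  have b1 : ∀ n, BddAbove (holevoSet (tensorPow (gadc γ ν) n)) := fun n =>
    ⟨_, fun c hc => le_scalar hγ hν n hc⟩
  have u1 : ∀ c ∈ holevoSet (gadc γ ν), c ≤ sSup (scalarFn γ ν '' Set.Icc 0 1) := fun c hc => by
    simpa using le_scalar hγ hν 1 (prod_mem hγ hν hc 1)
  have b2 : BddAbove (holevoSet (gadc γ ν)) := ⟨_, u1⟩
  have m0 := scalar_mem hγ hν ⟨le_rfl, zero_le_one⟩
  have e1 : holevo (gadc γ ν) = sSup (scalarFn γ ν '' Set.Icc 0 1) :=
    le_antisymm (csSup_le ⟨_, m0⟩ u1) (csSup_le hne (by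
      rintro _ ⟨q, hq, rfl⟩
      exact le_csSup b2 (scalar_mem hγ hν hq)))
  have e2 : ∀ n : ℕ, holevo (tensorPow (gadc γ ν) n) = n * holevo (gadc γ ν) := by
    intro n
    refine le_antisymm (csSup_le ⟨_, prod_mem hγ hν m0 n⟩ fun c hc => ?_) ?_
    · rw [e1]; exact le_scalar hγ hν n hc
    · rw [holevo, ← smul_eq_mul, ← Real.sSup_smul_of_nonneg (Nat.cast_nonneg n)]
      refine csSup_le ⟨_, _, m0, rfl⟩ ?_
      rintro _ ⟨c, hc, rfl⟩
      exact le_csSup (b1 n) (prod_mem hγ hν hc n)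
  have e3 : capacity (gadc γ ν) = holevo (gadc γ ν) := by
    have : {c | ∃ n : ℕ, 1 ≤ n ∧ c = holevo (tensorPow (gadc γ ν) n) / n}
        = {holevo (gadc γ ν)} := by
      ext c
      constructor
      · rintro ⟨n, hn, rfl⟩
        have : (n : ℝ) ≠ 0 := by positivity
        rw [e2, Set.mem_singleton_iff]
        field_simp
      · rintro rfl
        exact ⟨1, le_rfl, by simp [e2]⟩
    rw [capacity, this, csSup_singleton]
  exact ⟨b1, b2, e2, e3, by rw [e3, e1]; exact scalar_compact.isGreatest_sSup hne⟩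

end Vale.Agent.P358
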