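import Mathlib

/-!
Recovering `x log x` from `log (1 + x / s)` by integration in `s`.
-/

namespace Vale.Agent.P358

open Filter Topology

def Prof (g : ℝ → ℝ) (m e : ℝ) : Prop :=
  ∃ G : ℝ → ℝ, ContinuousOn G (Set.Ici 0) ∧ (∀ s, 0 < s → HasDerivAt G (g s) s) ∧
    Tendsto (fun s => G s - G 0 - m * Real.log s) atTop (𝓝 (m - e))

theorem Prof.add {g g' : ℝ → ℝ} {m e m' e' : ℝ} (h : Prof g m e) (h' : Prof g' m' e') :
    Prof (fun s => g s + g' s) (m + m') (e + e') := by
  obtain ⟨G, h1, h2, h3⟩ := h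
  obtain ⟨G', h1', h2', h3'⟩ := h'
  refine ⟨fun s => G s + G' s, h1.add h1', fun s hs => (h2 s hs).add (h2' s hs), ?_⟩
  convert h3.add h3' using 2 <;> ring

theorem Prof.smul {g : ℝ → ℝ} {m e : ℝ} (h : Prof g m e) (c : ℝ) :
    Prof (fun s => c * g s) (c * m) (c * e) := by
  obtain ⟨G, h1, h2, h3⟩ := h
  refine ⟨fun s => c * G s, continuousOn_const.mul h1, fun s hs => (h2 s hs).const_mul c, ?_⟩
  convert h3.const_mul c using 2 <;> ring

theorem Prof.sub {g g' : ℝ → ℝ} {m e m' e' : ℝ} (h : Prof g m e) (h' : Prof g' m' e') :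
    Prof (fun s => g s - g' s) (m - m') (e - e') := by
  convert h.add (h'.smul (-1)) using 2 <;> ring

theorem Prof.zero : Prof (fun _ => 0) 0 0 :=
  ⟨fun _ => 0, continuousOn_const, fun s _ => hasDerivAt_const s 0, by simp⟩

theorem Prof.sum {ι : Type} (t : Finset ι) {g : ι → ℝ → ℝ} {m e : ι → ℝ}
    (h : ∀ i, Prof (g i) (m i) (e i)) :
    Prof (fun s => ∑ i ∈ t, g i s) (∑ i ∈ t, m i) (∑ i ∈ t, e i) := by
  classical
  induction t using Finset.induction_on with
  | empty => simpa using Prof.zero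
  | insert a t ha ih => simpa only [Finset.sum_insert ha] using (h a).add ih

theorem Prof.congr {g g' : ℝ → ℝ} {m e : ℝ} (h : Prof g m e) (hg : ∀ s, 0 < s → g s = g' s) :
    Prof g' m e := by
  obtain ⟨G, h1, h2, h3⟩ := h
  exact ⟨G, h1, fun s hs => hg s hs ▸ h2 s hs, h3⟩

theorem Prof.nonpos {g : ℝ → ℝ} {e : ℝ} (h : Prof g 0 e) (hg : ∀ s, 0 < s → 0 ≤ g s) :
    e ≤ 0 := by
  obtain ⟨G, h1, h2, h3⟩ := h
  have hm : MonotoneOn G (Set.Ici 0) := by
    refine monotoneOn_of_deriv_nonneg (convex_Ici 0) h1 ?_ ?_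
    · rw [interior_Ici]
      exact fun s hs => (h2 s hs).differentiableAt.differentiableWithinAt
    · rw [interior_Ici]
      intro s hs
      rw [(h2 s hs).deriv]; exact hg s hs
  have : 0 ≤ 0 - e := by
    refine ge_of_tendsto h3 ?_
    filter_upwards [eventually_ge_atTop 0] with s hs
    have := hm (Set.mem_Ici.2 le_rfl) (Set.mem_Ici.2 hs) hs
    linarith
  linarith

theorem Prof.le {g g' : ℝ → ℝ} {m m' e e' : ℝ} (h : Prof g m e) (h' : Prof g' m' e')
    (hm : m = m') (hg : ∀ s, 0 < s → g' s ≤ g s) : e ≤ e' := by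
  have := h.sub h'
  rw [hm, sub_self] at this
  linarith [this.nonpos fun s hs => sub_nonneg.2 (hg s hs)]

theorem Prof.eq {g g' : ℝ → ℝ} {m m' e e' : ℝ} (h : Prof g m e) (h' : Prof g' m' e')
    (hm : m = m') (hg : ∀ s, 0 < s → g s = g' s) : e = e' :=
  le_antisymm (h.le h' hm fun s hs => (hg s hs).ge) (h'.le h hm.symm fun s hs => (hg s hs).le)

theorem tendsto_log_one_add (x : ℝ) :
    Tendsto (fun s : ℝ => Real.log (1 + x / s)) atTop (𝓝 0) := by
  have h1 : Tendsto (fun s : ℝ => 1 + x / s) atTop (𝓝 (1 + 0)) :=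
    tendsto_const_nhds.add (tendsto_const_nhds.div_atTop tendsto_id)
  rw [add_zero] at h1
  simpa using h1.log one_ne_zero

theorem prof_L {x : ℝ} (hx : 0 ≤ x) :
    Prof (fun s => Real.log (1 + x / s)) x (x * Real.log x) := by
  refine ⟨fun s => (s + x) * Real.log (s + x) - s * Real.log s, ?_, fun s hs => ?_, ?_⟩
  · exact ((Real.continuous_mul_log.comp (continuous_id.add continuous_const)).sub
      Real.continuous_mul_log).continuousOn
  · have h1 : 0 < s + x := by linarith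
    have h2 := ((Real.hasDerivAt_mul_log h1.ne').comp s ((hasDerivAt_id s).add_const x)).sub
      (Real.hasDerivAt_mul_log hs.ne')
    refine HasDerivAt.congr_deriv h2 ?_
    simp only
    rw [show 1 + x / s = (s + x) / s by field_simp, Real.log_div h1.ne' hs.ne']
    ring
  · have h1 := ((Real.tendsto_mul_log_one_add_div_atTop x).add
      ((tendsto_log_one_add x).const_mul x)).sub_const (x * Real.log x)
    rw [mul_zero, add_zero] at h1
    refine h1.congr' ?_
    filter_upwards [eventually_gt_atTop 0] with s hs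
    have h1 : 0 < s + x := by linarith
    rw [show 1 + x / s = (s + x) / s by field_simp, Real.log_div h1.ne' hs.ne']
    simp; ring

theorem prof_R {p : ℝ} (hp : 0 < p) : Prof (fun s => 1 / (s + p)) 1 (Real.log p + 1) := by
  refine ⟨fun s => Real.log (s + p), ?_, fun s hs => ?_, ?_⟩
  · refine ContinuousOn.log (continuous_id.add continuous_const).continuousOn fun s hs => ?_
    have : (0 : ℝ) ≤ s := hs
    linarith
  · have h1 : 0 < s + p := by linarith
    simpa using ((hasDerivAt_id s).add_const p).log h1.ne'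
  · have h1 := (tendsto_log_one_add p).sub_const (Real.log p)
    rw [show (1 : ℝ) - (Real.log p + 1) = 0 - Real.log p by ring]
    refine h1.congr' ?_
    filter_upwards [eventually_gt_atTop 0] with s hs
    have h1 : 0 < s + p := by linarith
    rw [show 1 + p / s = (s + p) / s by field_simp, Real.log_div h1.ne' hs.ne']
    simp; ring

/-- the coefficient of the tangent plane -/
noncomputable def kap (p p' μ₁ μ₂ r s : ℝ) : ℝ :=
  1 / (s + p * r) - (s + p' * r) / ((s + μ₁ * r) * (s + μ₂ * r))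

theorem prof_kap {p p' μ₁ μ₂ : ℝ} (hp : 0 < p) (h1 : 0 < μ₁) (h2 : 0 < μ₂) (hne : μ₁ ≠ μ₂) :
    ∃ e : ℝ, ∀ r, 0 < r → Prof (kap p p' μ₁ μ₂ r) 0 e := by
  have hd : μ₂ - μ₁ ≠ 0 := sub_ne_zero.2 hne.symm
  refine ⟨Real.log p - (p' - μ₁) / (μ₂ - μ₁) * Real.log μ₁ - (μ₂ - p') / (μ₂ - μ₁) * Real.log μ₂,
    fun r hr => ?_⟩
  have := ((prof_R (mul_pos hp hr)).sub ((prof_R (mul_pos h1 hr)).smul
    ((p' - μ₁) / (μ₂ - μ₁)))).sub ((prof_R (mul_pos h2 hr)).smul ((μ₂ - p') / (μ₂ - μ₁)))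
  convert this.congr (g' := kap p p' μ₁ μ₂ r) fun s hs => ?_ using 1
  · field_simp; ring
  · rw [Real.log_mul hp.ne' hr.ne', Real.log_mul h1.ne' hr.ne', Real.log_mul h2.ne' hr.ne']
    field_simp; ring
  · have := mul_pos h1 hr
    have := mul_pos h2 hr
    have := mul_pos hp hr
    unfold kap
    field_simp; ring

theorem kap_nonneg {p p' μ₁ μ₂ r s : ℝ} (hp : 0 < p) (h1 : 0 < μ₁) (h2 : 0 < μ₂)
    (hsum : μ₁ + μ₂ = p + p' + 1) (hprod : μ₁ * μ₂ = p * p') (hr : 0 ≤ r) (hs : 0 < s) :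
    0 ≤ kap p p' μ₁ μ₂ r s := by
  have a1 : 0 < s + p * r := by positivity
  have a2 : 0 < (s + μ₁ * r) * (s + μ₂ * r) := by positivity
  rw [kap, sub_nonneg, div_le_div_iff₀ a2 a1]
  have : (s + μ₁ * r) * (s + μ₂ * r) = (s + p' * r) * (s + p * r) + s * r := by
    linear_combination s * r * hsum + r ^ 2 * hprod
  rw [this]
  nlinarith [mul_nonneg hs.le hr]

theorem kap_zero (p p' μ₁ μ₂ : ℝ) {s : ℝ} (hs : 0 < s) : kap p p' μ₁ μ₂ 0 s = 0 := by
  simp only [kap, mul_zero, add_zero]; field_simp; ring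

end Vale.Agent.P358
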