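import Vale.Agent.P350.Spectral
import Vale.Agent.P358.Prof

/-!
`tr X log X`, logarithmic determinants and Jensen's inequality for `log det`.
-/

namespace Vale.Agent.P358

open Matrix Vale.Agent.P350
open scoped ComplexOrder MatrixOrder

variable {n m : Type} [Fintype n] [Fintype m] [DecidableEq n] [DecidableEq m]

noncomputable def rt (X : Matrix n n ℂ) : ℝ := (trace X).re

noncomputable def ld (X : Matrix n n ℂ) : ℝ := Real.log ‖X.det‖

noncomputable def LD (X : Matrix n n ℂ) (s : ℝ) : ℝ := ld (1 + s⁻¹ • X)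

noncomputable def phi (X : Matrix n n ℂ) : ℝ :=
  if h : X.IsHermitian then ∑ i, h.eigenvalues i * Real.log (h.eigenvalues i) else 0

omit [DecidableEq n] in
theorem rt_add (X Y : Matrix n n ℂ) : rt (X + Y) = rt X + rt Y := by simp [rt]

omit [DecidableEq n] in
theorem rt_sub (X Y : Matrix n n ℂ) : rt (X - Y) = rt X - rt Y := by simp [rt]

omit [DecidableEq n] in
theorem rt_smul (c : ℝ) (X : Matrix n n ℂ) : rt (c • X) = c * rt X := by simp [rt]

omit [DecidableEq n] in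
theorem rt_zero : rt (0 : Matrix n n ℂ) = 0 := by simp [rt]

omit [DecidableEq n] in
theorem rt_sum {ι : Type} (t : Finset ι) (X : ι → Matrix n n ℂ) :
    rt (∑ i ∈ t, X i) = ∑ i ∈ t, rt (X i) := by simp [rt, trace_sum]

omit [DecidableEq n] [DecidableEq m] in
theorem rt_mul_comm (X : Matrix n m ℂ) (Y : Matrix m n ℂ) : rt (X * Y) = rt (Y * X) := by
  rw [rt, trace_mul_comm, rt]

omit [DecidableEq n] in
theorem rt_nonneg {X : Matrix n n ℂ} (h : 0 ≤ X) : 0 ≤ rt X := retr_nonneg h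

theorem rt_mul_nonneg {X Y : Matrix n n ℂ} (hX : 0 ≤ X) (hY : 0 ≤ Y) : 0 ≤ rt (X * Y) := by
  simpa [ev, rt] using ev_nonneg (1 : Matrix n n ℂ) hX hY

theorem rt_mul_le {X Y Y' : Matrix n n ℂ} (hX : 0 ≤ X) (h : Y ≤ Y') :
    rt (X * Y) ≤ rt (X * Y') := by
  have := rt_mul_nonneg hX (sub_nonneg.2 h)
  rw [Matrix.mul_sub, rt_sub] at this; linarith

omit [DecidableEq n] in
theorem eq_zero_of_rt {X : Matrix n n ℂ} (h : 0 ≤ X) (h0 : rt X = 0) : X = 0 := by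
  refine h.posSemidef.trace_eq_zero_iff.1 (Complex.ext h0 ?_)
  exact (Complex.nonneg_iff.1 h.posSemidef.trace_nonneg).2.symm

omit [DecidableEq n] [DecidableEq m] in
theorem rt_fromBlocks (A : Matrix n n ℂ) (B : Matrix n m ℂ) (C : Matrix m n ℂ)
    (D : Matrix m m ℂ) : rt (fromBlocks A B C D) = rt A + rt D := by
  simp [rt, trace, Fintype.sum_sum_type]

theorem rt_dg_mul (U : Matrix n n ℂ) (t : n → ℝ) (X : Matrix n n ℂ) :
    rt (dg U t * X) = ∑ i, t i * ((Uᴴ * X * U) i i).re := by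
  rw [dg, Matrix.mul_assoc, Matrix.mul_assoc, rt_mul_comm, Matrix.mul_assoc, rt]
  simp only [trace, diag, diagonal_mul, Complex.re_sum]
  simp

theorem rt_dg {U : Matrix n n ℂ} (hU : Uᴴ * U = 1) (t : n → ℝ) : rt (dg U t) = ∑ i, t i := by
  have := rt_dg_mul U t 1
  simpa [hU] using this

theorem det_dg {U : Matrix n n ℂ} (hU : Uᴴ * U = 1) (t : n → ℝ) :
    (dg U t).det = ((∏ i, t i : ℝ) : ℂ) := by
  rw [dg, det_mul, det_mul, mul_comm, ← mul_assoc, ← det_mul, hU, det_diagonal]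
  simp

theorem ld_dg {U : Matrix n n ℂ} (hU : Uᴴ * U = 1) {t : n → ℝ} (ht : ∀ i, 0 < t i) :
    ld (dg U t) = ∑ i, Real.log (t i) := by
  rw [ld, det_dg hU, Complex.norm_real, Real.norm_eq_abs,
    abs_of_pos (Finset.prod_pos fun i _ => ht i), Real.log_prod fun i _ => (ht i).ne']

theorem ld_mul {X Y : Matrix n n ℂ} (hX : X.det ≠ 0) (hY : Y.det ≠ 0) :
    ld (X * Y) = ld X + ld Y := by
  rw [ld, det_mul, norm_mul, Real.log_mul (norm_ne_zero_iff.2 hX) (norm_ne_zero_iff.2 hY)]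
  rfl

theorem ld_one : ld (1 : Matrix n n ℂ) = 0 := by simp [ld]

theorem one_add_dg {U : Matrix n n ℂ} (hU : U * Uᴴ = 1) (c : ℝ) (t : n → ℝ) :
    1 + c • dg U t = dg U fun i => 1 + c * t i := by
  rw [dg_smul, ← dg_one hU, dg_add]

theorem LD_dg {U : Matrix n n ℂ} (hU : Uᴴ * U = 1) (hU' : U * Uᴴ = 1) {t : n → ℝ}
    (ht : ∀ i, 0 ≤ t i) {s : ℝ} (hs : 0 < s) : LD (dg U t) s = ∑ i, Real.log (1 + t i / s) := by
  rw [LD, one_add_dg hU', ld_dg hU fun i => by have := ht i; positivity]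
  simp only [div_eq_inv_mul]

theorem prof_dg {U : Matrix n n ℂ} (hU : Uᴴ * U = 1) (hU' : U * Uᴴ = 1) {t : n → ℝ}
    (ht : ∀ i, 0 ≤ t i) : Prof (LD (dg U t)) (∑ i, t i) (∑ i, t i * Real.log (t i)) :=
  (Prof.sum Finset.univ fun i => prof_L (ht i)).congr fun _ hs => (LD_dg hU hU' ht hs).symm

theorem prof_LD {X : Matrix n n ℂ} (hX : 0 ≤ X) : Prof (LD X) (rt X) (phi X) := by
  have h : X.IsHermitian := hX.posSemidef.1
  have h1 : h.eigenvectorUnitary.1ᴴ * h.eigenvectorUnitary.1 = 1 :=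
    (Unitary.mem_iff.1 h.eigenvectorUnitary.2).1
  have h2 : h.eigenvectorUnitary.1 * h.eigenvectorUnitary.1ᴴ = 1 :=
    (Unitary.mem_iff.1 h.eigenvectorUnitary.2).2
  have e : X = dg h.eigenvectorUnitary.1 h.eigenvalues := by
    conv_lhs => rw [h.spectral_theorem, Unitary.conjStarAlgAut_apply]
    rfl
  have := prof_dg h1 h2 hX.posSemidef.eigenvalues_nonneg
  rw [← rt_dg h1, ← e] at this
  rw [phi, dif_pos h]
  exact this

theorem phi_dg {U : Matrix n n ℂ} (hU : Uᴴ * U = 1) (hU' : U * Uᴴ = 1) {t : n → ℝ}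
    (ht : ∀ i, 0 ≤ t i) : phi (dg U t) = ∑ i, t i * Real.log (t i) :=
  (prof_LD (dg_nonneg U ht)).eq (prof_dg hU hU' ht) (rt_dg hU t) fun _ _ => rfl

theorem phi_zero : phi (0 : Matrix n n ℂ) = 0 := by
  have := phi_dg (U := (1 : Matrix n n ℂ)) (by simp) (by simp) (t := fun _ => 0) fun _ => le_rfl
  simpa [dg_zero] using this

theorem phi_smul {X : Matrix n n ℂ} (hX : 0 ≤ X) {c : ℝ} (hc : 0 ≤ c) :
    phi (c • X) = c * phi X + c * Real.log c * rt X := by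
  obtain ⟨U, t, hU, hU', rfl⟩ := exists_dg (herm_of_nonneg hX)
  have ht := nonneg_of_dg hU hX
  rw [dg_smul, phi_dg hU hU' fun i => mul_nonneg hc (ht i), phi_dg hU hU' ht, rt_dg hU,
    Finset.mul_sum, Finset.mul_sum, ← Finset.sum_add_distrib]
  refine Finset.sum_congr rfl fun i _ => ?_
  rcases eq_or_lt_of_le hc with h | h
  · simp [← h]
  rcases eq_or_lt_of_le (ht i) with h' | h'
  · simp [← h']
  rw [Real.log_mul h.ne' h'.ne']; ring

theorem LD_comm (V : Matrix n m ℂ) (W : Matrix m n ℂ) (s : ℝ) : LD (V * W) s = LD (W * V) s := by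
  rw [LD, LD, ld, ld, ← Matrix.smul_mul, det_one_add_mul_comm, Matrix.mul_smul]

theorem phi_comm (V : Matrix n m ℂ) : phi (V * Vᴴ) = phi (Vᴴ * V) :=
  (prof_LD (self_nonneg' V)).eq (prof_LD (self_nonneg V)) (rt_mul_comm _ _)
    fun s _ => LD_comm _ _ s

theorem exists_pos_dg {M : Matrix n n ℂ} (hM : M.PosDef) :
    ∃ (U : Matrix n n ℂ) (t : n → ℝ), Uᴴ * U = 1 ∧ U * Uᴴ = 1 ∧ (∀ i, 0 < t i) ∧ M = dg U t := by
  obtain ⟨U, t, hU, hU', rfl⟩ := exists_dg hM.1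
  refine ⟨U, t, hU, hU', fun i => lt_of_le_of_ne (nonneg_of_dg hU hM.posSemidef.nonneg i) ?_, rfl⟩
  intro h
  have := hM.det_pos
  rw [det_dg hU, Finset.prod_eq_zero (Finset.mem_univ i) h.symm] at this
  simp at this

theorem posDef_dg {U : Matrix n n ℂ} (hU : Uᴴ * U = 1) {t : n → ℝ} (ht : ∀ i, 0 < t i) :
    (dg U t).PosDef := by
  rw [(dg_nonneg U fun i => (ht i).le).posSemidef.posDef_iff_det_ne_zero, det_dg hU]
  exact_mod_cast (Finset.prod_pos fun i _ => ht i).ne'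

theorem posDef_one_add {X : Matrix n n ℂ} (hX : 0 ≤ X) {c : ℝ} (hc : 0 ≤ c) :
    (1 + c • X).PosDef := PosDef.one.add_posSemidef (smul_nonneg' hX hc).posSemidef

theorem diag_quad (B : Matrix n m ℂ) (t : n → ℝ) (k : m) :
    ((Bᴴ * diagonal (fun i => (t i : ℂ)) * B) k k).re = ∑ i, ‖B i k‖ ^ 2 * t i := by
  rw [mul_apply, Complex.re_sum]
  refine Finset.sum_congr rfl fun i _ => ?_
  rw [mul_diagonal, conjTranspose_apply, mul_right_comm, Complex.star_def, Complex.conj_mul']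
  norm_cast

theorem dg_quad (U : Matrix n n ℂ) (t : n → ℝ) (I : Matrix n m ℂ) (k : m) :
    ((Iᴴ * dg U t * I) k k).re = ∑ i, ‖(Uᴴ * I) i k‖ ^ 2 * t i := by
  rw [← diag_quad]
  simp only [dg, conjTranspose_mul, conjTranspose_conjTranspose, Matrix.mul_assoc]

/-- Jensen's inequality for `log det` -/
theorem ld_jensen {n₁ n₂ : Type} [Fintype n₁] [Fintype n₂] [DecidableEq n₁] [DecidableEq n₂]
    (I₁ : Matrix n₁ m ℂ) (I₂ : Matrix n₂ m ℂ) (hI : I₁ᴴ * I₁ + I₂ᴴ * I₂ = 1)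
    {U₁ : Matrix n₁ n₁ ℂ} {U₂ : Matrix n₂ n₂ ℂ} (hU₁ : U₁ * U₁ᴴ = 1) (hU₂ : U₂ * U₂ᴴ = 1)
    {t₁ : n₁ → ℝ} {t₂ : n₂ → ℝ} (ht₁ : ∀ i, 0 < t₁ i) (ht₂ : ∀ i, 0 < t₂ i)
    (hN : (I₁ᴴ * dg U₁ t₁ * I₁ + I₂ᴴ * dg U₂ t₂ * I₂).PosDef) :
    rt (I₁ᴴ * dg U₁ (fun i => Real.log (t₁ i)) * I₁)
      + rt (I₂ᴴ * dg U₂ (fun i => Real.log (t₂ i)) * I₂)
      ≤ ld (I₁ᴴ * dg U₁ t₁ * I₁ + I₂ᴴ * dg U₂ t₂ * I₂) := by
  obtain ⟨Q, ν, hQ, hQ', hν, hNe⟩ := exists_pos_dg hN
  have hconj : ∀ X : Matrix m m ℂ, rt X = ∑ k, ((Qᴴ * X * Q) k k).re := by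
    intro X
    have := rt_dg_mul Q (fun _ => 1) X
    simpa [dg_one hQ'] using this
  have hq : ∀ (f₁ : n₁ → ℝ) (f₂ : n₂ → ℝ) (k : m),
      ((Qᴴ * (I₁ᴴ * dg U₁ f₁ * I₁ + I₂ᴴ * dg U₂ f₂ * I₂) * Q) k k).re
        = ∑ i, ‖(U₁ᴴ * (I₁ * Q)) i k‖ ^ 2 * f₁ i + ∑ i, ‖(U₂ᴴ * (I₂ * Q)) i k‖ ^ 2 * f₂ i := by
    intro f₁ f₂ k
    rw [← dg_quad, ← dg_quad]
    simp only [Matrix.mul_add, Matrix.add_mul, conjTranspose_mul, Matrix.mul_assoc,
      Matrix.add_apply, Complex.add_re]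
  rw [← rt_add, hconj, hNe, ld_dg hQ hν]
  refine Finset.sum_le_sum fun k _ => ?_
  have h1 := hq t₁ t₂ k
  rw [hNe, conj_dg hQ, diagonal_apply_eq, Complex.ofReal_re] at h1
  have h2 := hq (fun _ => 1) (fun _ => 1) k
  rw [dg_one hU₁, dg_one hU₂, Matrix.mul_one, Matrix.mul_one, hI, Matrix.mul_one, hQ,
    one_apply_eq, Complex.one_re] at h2
  rw [hq]
  have key : ∀ t : ℝ, 0 < t → Real.log t ≤ (Real.log (ν k) - 1) * 1 + (ν k)⁻¹ * t := by
    intro t ht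
    have := Real.log_le_sub_one_of_pos (div_pos ht (hν k))
    rw [Real.log_div ht.ne' (hν k).ne', div_eq_inv_mul] at this
    linarith
  have a1 := Finset.sum_le_sum fun i (_ : i ∈ Finset.univ) =>
    mul_le_mul_of_nonneg_left (key _ (ht₁ i)) (sq_nonneg ‖(U₁ᴴ * (I₁ * Q)) i k‖)
  have a2 := Finset.sum_le_sum fun i (_ : i ∈ Finset.univ) =>
    mul_le_mul_of_nonneg_left (key _ (ht₂ i)) (sq_nonneg ‖(U₂ᴴ * (I₂ * Q)) i k‖)
  simp only [mul_add, Finset.sum_add_distrib, mul_left_comm (‖_‖ ^ 2), ← Finset.mul_sum] at a1 a2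
  have a3 : (ν k)⁻¹ * ν k = 1 := inv_mul_cancel₀ (hν k).ne'
  have a4 := congrArg (fun z => (ν k)⁻¹ * z) h1
  have a5 := congrArg (fun z => (Real.log (ν k) - 1) * z) h2
  simp only [mul_add] at a4 a5
  linarith

theorem ld_concave {X Y : Matrix n n ℂ} (hX : X.PosDef) (hY : Y.PosDef) {p q : ℝ} (hp : 0 < p)
    (hq : 0 < q) (hpq : p + q = 1) : p * ld X + q * ld Y ≤ ld (p • X + q • Y) := by
  have hN := (hX.smul hp).add (hY.smul hq)
  obtain ⟨U₁, t₁, hU₁, hU₁', ht₁, rfl⟩ := exists_pos_dg hX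
  obtain ⟨U₂, t₂, hU₂, hU₂', ht₂, rfl⟩ := exists_pos_dg hY
  have e : ∀ (c : ℝ), 0 < c → ∀ Z : Matrix n n ℂ,
      (Real.sqrt c • (1 : Matrix n n ℂ))ᴴ * Z * (Real.sqrt c • (1 : Matrix n n ℂ)) = c • Z := by
    intro c hc Z
    simp [smul_smul, Real.mul_self_sqrt hc.le]
  have := ld_jensen (Real.sqrt p • (1 : Matrix n n ℂ)) (Real.sqrt q • (1 : Matrix n n ℂ))
    (by
      have h1 := e p hp 1
      have h2 := e q hq 1
      rw [Matrix.mul_one] at h1 h2
      rw [h1, h2, ← add_smul, hpq, one_smul]) hU₁' hU₂' ht₁ ht₂ (by rwa [e p hp, e q hq])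
  rwa [e p hp, e q hq, e p hp, e q hq, rt_smul, rt_smul, rt_dg hU₁, rt_dg hU₂, ← ld_dg hU₁ ht₁,
    ← ld_dg hU₂ ht₂] at this

/-- concavity of the entropy -/
theorem phi_add_le {X Y : Matrix n n ℂ} (hX : 0 ≤ X) (hY : 0 ≤ Y) :
    phi (X + Y) - rt (X + Y) * Real.log (rt (X + Y))
      ≤ (phi X - rt X * Real.log (rt X)) + (phi Y - rt Y * Real.log (rt Y)) := by
  rcases eq_or_lt_of_le (rt_nonneg hX) with hx | hx
  · rw [eq_zero_of_rt hX hx.symm]; simp [phi_zero, rt_zero]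
  rcases eq_or_lt_of_le (rt_nonneg hY) with hy | hy
  · rw [eq_zero_of_rt hY hy.symm]; simp [phi_zero, rt_zero]
  rw [rt_add]
  set x := rt X with hxd
  set y := rt Y with hyd
  have hs : 0 < x + y := by positivity
  have hp : 0 < x / (x + y) := by positivity
  have hq : 0 < y / (x + y) := by positivity
  have hX' := smul_nonneg' hX (show 0 ≤ (x + y) / x by positivity)
  have hY' := smul_nonneg' hY (show 0 ≤ (x + y) / y by positivity)
  have h := (prof_LD (add_nonneg hX hY)).le (((prof_LD hX').smul (x / (x + y))).add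
    ((prof_LD hY').smul (y / (x + y)))) (by
      rw [rt_add, rt_smul, rt_smul, ← hxd, ← hyd]; field_simp) (fun s hs => by
      have := ld_concave (posDef_one_add hX' (inv_nonneg.2 hs.le))
        (posDef_one_add hY' (inv_nonneg.2 hs.le)) hp hq (by field_simp)
      refine this.trans (le_of_eq ?_)
      rw [LD]
      congr 1
      simp only [smul_add, smul_smul]
      rw [show x / (x + y) * (s⁻¹ * ((x + y) / x)) = s⁻¹ by field_simp,
        show y / (x + y) * (s⁻¹ * ((x + y) / y)) = s⁻¹ by field_simp, add_add_add_comm,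
        ← add_smul, show x / (x + y) + y / (x + y) = 1 by field_simp, one_smul])
  rw [phi_smul hX (by positivity), phi_smul hY (by positivity), ← hxd, ← hyd,
    Real.log_div hs.ne' hx.ne', Real.log_div hs.ne' hy.ne'] at h
  have e1 : x / (x + y) * ((x + y) / x * phi X + (x + y) / x * (Real.log (x + y) - Real.log x) * x)
      = phi X + x * (Real.log (x + y) - Real.log x) := by field_simp
  have e2 : y / (x + y) * ((x + y) / y * phi Y + (x + y) / y * (Real.log (x + y) - Real.log y) * y)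
      = phi Y + y * (Real.log (x + y) - Real.log y) := by field_simp
  rw [e1, e2] at h
  linarith

theorem fromBlocks_diag_nonneg {A : Matrix n n ℂ} {D : Matrix m m ℂ} (hA : 0 ≤ A) (hD : 0 ≤ D) :
    0 ≤ fromBlocks A 0 0 D := by
  obtain ⟨C, rfl⟩ := exists_sqrt hA
  obtain ⟨E, rfl⟩ := exists_sqrt hD
  have := self_nonneg (fromBlocks C 0 0 E)
  simpa [fromBlocks_conjTranspose, fromBlocks_multiply] using this

theorem phi_fromBlocks_diag {A : Matrix n n ℂ} {D : Matrix m m ℂ} (hA : 0 ≤ A) (hD : 0 ≤ D) :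
    phi (fromBlocks A 0 0 D) = phi A + phi D := by
  refine (prof_LD (fromBlocks_diag_nonneg hA hD)).eq ((prof_LD hA).add (prof_LD hD))
    (rt_fromBlocks _ _ _ _) fun s hs => ?_
  have h1 := (posDef_one_add hA (inv_nonneg.2 hs.le)).det_pos.ne'
  have h2 := (posDef_one_add hD (inv_nonneg.2 hs.le)).det_pos.ne'
  simp only [LD, ld]
  rw [← fromBlocks_one, fromBlocks_smul, fromBlocks_add, smul_zero, smul_zero, add_zero, add_zero,
    det_fromBlocks_zero₂₁, norm_mul,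
    Real.log_mul (norm_ne_zero_iff.2 h1) (norm_ne_zero_iff.2 h2)]

omit [DecidableEq n] [DecidableEq m] in
theorem rt_submatrix (e : m ≃ n) (X : Matrix n n ℂ) : rt (X.submatrix e e) = rt X := by
  simp only [rt, trace, diag, submatrix_apply]
  rw [e.sum_comp fun j => X j j]

theorem phi_submatrix (e : m ≃ n) {X : Matrix n n ℂ} (hX : 0 ≤ X) :
    phi (X.submatrix e e) = phi X := by
  refine (prof_LD (hX.posSemidef.submatrix e).nonneg).eq (prof_LD hX) (rt_submatrix e X)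
    fun s _ => ?_
  simp only [LD, ld]
  rw [← det_submatrix_equiv_self e (1 + s⁻¹ • X), submatrix_add, submatrix_smul]
  simp

end Vale.Agent.P358
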