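import Vale.Agent.P358.Tensor
import Vale.Agent.P358.Conv

/-!
The upper bound on the Holevo quantity of tensor powers, by induction on the number of uses.
-/

namespace Vale.Agent.P358

open Matrix Vale.Agent.P350
open scoped ComplexOrder MatrixOrder

noncomputable def kr (γ ν : ℝ) : Fin 4 → Matrix (Fin 2) (Fin 2) ℂ :=
  ![!![(√(1 - ν) : ℝ), 0; 0, (√(1 - ν) : ℝ) * (√(1 - γ) : ℝ)], !![0, (√(1 - ν) : ℝ) * (√γ : ℝ); 0, 0],
    !![(√ν : ℝ) * (√(1 - γ) : ℝ), 0; 0, (√ν : ℝ)], !![0, 0; (√ν : ℝ) * (√γ : ℝ), 0]]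

theorem gadc_kraus {γ ν : ℝ} (hγ : γ ∈ Set.Icc (0 : ℝ) 1) (hν : ν ∈ Set.Icc (0 : ℝ) 1)
    (ρ : Matrix (Fin 2) (Fin 2) ℂ) : gadc γ ν ρ = ∑ j, kr γ ν j * ρ * (kr γ ν j)ᴴ := by
  have h : ∀ x : ℝ, 0 ≤ x → ((√x : ℝ) : ℂ) ^ 2 = x := fun x hx => by
    exact_mod_cast Real.sq_sqrt hx
  have h1 := h _ hγ.1
  have h2 := h _ hν.1
  have h3 := h _ (sub_nonneg.2 hγ.2)
  have h4 := h _ (sub_nonneg.2 hν.2)
  push_cast at h3 h4
  ext i j
  fin_cases i <;> fin_cases j <;>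
    simp [gadc, kr, Fin.sum_univ_four, mul_apply, trace_fin_two, vecMul, dotProduct]
  · linear_combination -(ρ 0 0 + (√γ : ℝ) ^ 2 * ρ 1 1) * h4 - (1 - (ν : ℂ)) * ρ 1 1 * h1
      - (√(1 - γ) : ℝ) ^ 2 * ρ 0 0 * h2 - ν * ρ 0 0 * h3
  · linear_combination -(√(1 - γ) : ℝ) * ρ 0 1 * (h4 + h2)
  · linear_combination -(√(1 - γ) : ℝ) * ρ 1 0 * (h4 + h2)
  · linear_combination -(ρ 1 1 + (√γ : ℝ) ^ 2 * ρ 0 0) * h2 - (ν : ℂ) * ρ 0 0 * h1
      - (√(1 - γ) : ℝ) ^ 2 * ρ 1 1 * h4 - (1 - (ν : ℂ)) * ρ 1 1 * h3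

variable {n : ℕ}

def spl (n : ℕ) : (Fin n → Fin 2) ⊕ (Fin n → Fin 2) ≃ (Fin (n + 1) → Fin 2) where
  toFun := Sum.elim (fun x => Fin.cons 0 x) fun x => Fin.cons 1 x
  invFun x := if x 0 = 0 then Sum.inl (Fin.tail x) else Sum.inr (Fin.tail x)
  left_inv x := by rcases x with x | x <;> simp
  right_inv x := by
    by_cases h : x 0 = 0
    · simp only [h, if_true, Sum.elim_inl]
      rw [← h, Fin.cons_self_tail]
    · simp only [h, if_false, Sum.elim_inr]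
      rw [← Fin.eq_one_of_ne_zero _ h, Fin.cons_self_tail]

def blk (i j : Fin 2) (ρ : Matrix (Fin (n + 1) → Fin 2) (Fin (n + 1) → Fin 2) ℂ) :
    Matrix (Fin n → Fin 2) (Fin n → Fin 2) ℂ :=
  ρ.submatrix (fun x => Fin.cons i x) fun x => Fin.cons j x

theorem sub_spl (ρ : Matrix (Fin (n + 1) → Fin 2) (Fin (n + 1) → Fin 2) ℂ) :
    ρ.submatrix (spl n) (spl n) = fromBlocks (blk 0 0 ρ) (blk 0 1 ρ) (blk 1 0 ρ) (blk 1 1 ρ) := by
  ext (x | x) (y | y) <;> rfl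

theorem blk_tensorPow (N : Matrix (Fin 2) (Fin 2) ℂ → Matrix (Fin 2) (Fin 2) ℂ) (i j : Fin 2)
    (ρ : Matrix (Fin (n + 1) → Fin 2) (Fin (n + 1) → Fin 2) ℂ) :
    blk i j (tensorPow N (n + 1) ρ)
      = ∑ k, ∑ l, N (single k l 1) i j • tensorPow N n (blk k l ρ) := by
  ext x y
  simp only [blk, tensorPow, submatrix_apply, of_apply, Matrix.sum_apply, Matrix.smul_apply,
    smul_eq_mul, ← (spl n).sum_comp, Fintype.sum_sum_type, Fin.prod_univ_succ, Fin.sum_univ_two,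
    Matrix.add_apply, Finset.mul_sum, Finset.sum_add_distrib]
  simp only [spl, Equiv.coe_fn_mk, Sum.elim_inl, Sum.elim_inr, Fin.cons_zero, Fin.cons_succ,
    mul_left_comm]

theorem tensorPow_succ (γ ν : ℝ) (ρ : Matrix (Fin (n + 1) → Fin 2) (Fin (n + 1) → Fin 2) ℂ) :
    (tensorPow (gadc γ ν) (n + 1) ρ).submatrix (spl n) (spl n)
      = fromBlocks ((1 - γ * ν) • tensorPow (gadc γ ν) n (blk 0 0 ρ)
          + (γ * (1 - ν)) • tensorPow (gadc γ ν) n (blk 1 1 ρ))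
        (√(1 - γ) • tensorPow (gadc γ ν) n (blk 0 1 ρ))
        (√(1 - γ) • tensorPow (gadc γ ν) n (blk 1 0 ρ))
        ((γ * ν) • tensorPow (gadc γ ν) n (blk 0 0 ρ)
          + (1 - γ + γ * ν) • tensorPow (gadc γ ν) n (blk 1 1 ρ)) := by
  rw [sub_spl]
  simp only [blk_tensorPow, Fin.sum_univ_two, ← Complex.coe_smul]
  congr 1 <;> simp [gadc, trace_fin_two]
  congr 1; ring

theorem trace_tensorPow (γ ν : ℝ) (ρ : Matrix (Fin n → Fin 2) (Fin n → Fin 2) ℂ) :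
    trace (tensorPow (gadc γ ν) n ρ) = trace ρ := by
  have e : ∀ u v : Fin 2, ∑ x, gadc γ ν (single u v 1) x x = if u = v then 1 else 0 := by
    intro u v
    fin_cases u <;> fin_cases v <;> simp [gadc, trace_fin_two]
  simp only [trace, diag, tensorPow, of_apply]
  rw [Finset.sum_comm]
  refine Finset.sum_congr rfl fun u _ => ?_
  rw [Finset.sum_comm]
  simp only [← Finset.mul_sum, fun v : Fin n → Fin 2 =>
    sum_prod_pi fun k x => gadc γ ν (single (u k) (v k) 1) x x, e]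
  rw [Finset.sum_eq_single u (fun v _ hv => ?_) (by simp)]
  · simp
  · obtain ⟨k, hk⟩ := Function.ne_iff.1 hv
    rw [Finset.prod_eq_zero (Finset.mem_univ k) (if_neg hk.symm), mul_zero]

section Blocks

variable {α β : Type} [Fintype α] [Fintype β] [DecidableEq α] [DecidableEq β]

omit [DecidableEq α] [DecidableEq β] in
theorem block_factor {A : Matrix α α ℂ} {B : Matrix α β ℂ} {C : Matrix β α ℂ} {D : Matrix β β ℂ}
    (h : 0 ≤ fromBlocks A B C D) : ∃ (V : Matrix α (α ⊕ β) ℂ) (W : Matrix β (α ⊕ β) ℂ),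
      A = V * Vᴴ ∧ B = V * Wᴴ ∧ C = W * Vᴴ ∧ D = W * Wᴴ := by
  obtain ⟨E, hE⟩ := exists_sqrt h
  refine ⟨toRows₁ Eᴴ, toRows₂ Eᴴ, fromBlocks_inj.1 ?_⟩
  rw [← fromRows_mul_fromCols, ← conjTranspose_fromRows_eq_fromCols_conjTranspose, fromRows_toRows,
    conjTranspose_conjTranspose, hE]

theorem HH_rows {δ : Type} [Fintype δ] [DecidableEq δ] (V : Matrix α δ ℂ) (W : Matrix β δ ℂ) :
    HH (fromBlocks (V * Vᴴ) (V * Wᴴ) (W * Vᴴ) (W * Wᴴ)) = HH (Vᴴ * V + Wᴴ * W) := by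
  rw [← fromRows_mul_fromCols, ← fromCols_mul_fromRows,
    ← conjTranspose_fromRows_eq_fromCols_conjTranspose, HH, HH, phi_comm, rt_mul_comm]

theorem pinch {A B C D : Matrix α α ℂ} (h : 0 ≤ fromBlocks A B C D) :
    HH (fromBlocks A B C D) ≤ HH (A + D) + h2 (rt A) (rt D) := by
  obtain ⟨V, W, rfl, rfl, rfl, rfl⟩ := block_factor h
  have h' := block_nonneg le_rfl V (-W)
  rw [zero_add] at h'
  have h1 := HH_add h h'
  have hd := fromBlocks_diag_nonneg (self_nonneg' V) (self_nonneg' W)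
  have e : fromBlocks (V * Vᴴ) (V * Wᴴ) (W * Vᴴ) (W * Wᴴ)
      + fromBlocks (V * Vᴴ) (V * (-W)ᴴ) (-W * Vᴴ) (-W * (-W)ᴴ)
      = (2 : ℝ) • fromBlocks (V * Vᴴ) 0 0 (W * Wᴴ) := by
    simp [fromBlocks_add, two_smul]
  rw [e, HH_smul hd zero_le_two, HH_diag (self_nonneg' V) (self_nonneg' W), HH_rows V (-W)] at h1
  simp only [conjTranspose_neg, Matrix.neg_mul, Matrix.mul_neg, neg_neg] at h1
  rw [← HH_rows] at h1
  linarith [HH_add (self_nonneg' V) (self_nonneg' W)]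

theorem HH_unique [Unique α] {X : Matrix α α ℂ} (hX : 0 ≤ X) : HH X = 0 := by
  obtain ⟨U, t, hU, hU', rfl⟩ := exists_dg (herm_of_nonneg hX)
  rw [HH, phi_dg hU hU' (nonneg_of_dg hU hX), rt_dg hU]
  simp

end Blocks

theorem h2_eq {p x : ℝ} (hp : 0 ≤ p) (h0 : 0 ≤ x) (h1 : x ≤ 1) :
    h2 (p * x) (p * (1 - x)) = p * Real.binEntropy x := by
  rw [h2_smul hp h0 (sub_nonneg.2 h1), h2, Real.binEntropy]
  simp only [add_sub_cancel, Real.log_one, Real.log_inv]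
  ring

noncomputable def del (γ ν q : ℝ) : ℝ := γ * ν * (1 - ν) + γ * (1 - γ) * (q - ν) ^ 2

noncomputable def gg (γ ν q : ℝ) : ℝ := Real.binEntropy ((1 + √(1 - 4 * del γ ν q)) / 2)

variable {γ ν : ℝ} (hγ : γ ∈ Set.Icc (0 : ℝ) 1) (hν : ν ∈ Set.Icc (0 : ℝ) 1)
include hγ hν

theorem del_nonneg (q : ℝ) : 0 ≤ del γ ν q :=
  add_nonneg (mul_nonneg (mul_nonneg hγ.1 hν.1) (sub_nonneg.2 hν.2))
    (mul_nonneg (mul_nonneg hγ.1 (sub_nonneg.2 hγ.2)) (sq_nonneg _))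

omit hν in
theorem del_le {q : ℝ} (hq : q ∈ Set.Icc (0 : ℝ) 1) : 4 * del γ ν q ≤ 1 := by
  have := mul_nonneg (sub_nonneg.2 hγ.2) (mul_nonneg hq.1 (sub_nonneg.2 hq.2))
  have e : 1 - 4 * del γ ν q = (1 - 2 * ((1 - γ) * q + γ * ν)) ^ 2 + 4 * ((1 - γ) * (q * (1 - q))) := by
    rw [del]; ring
  nlinarith [sq_nonneg (1 - 2 * ((1 - γ) * q + γ * ν))]

theorem gg_jensen {ι : Type} [Fintype ι] {p q : ι → ℝ} (hp : ∀ a, 0 ≤ p a) (hs : ∑ a, p a = 1)
    (hq : ∀ a, q a ∈ Set.Icc (0 : ℝ) 1) :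
    gg γ ν (∑ a, p a * q a) ≤ ∑ a, p a * gg γ ν (q a) := by
  have e : ∀ x, gg γ ν x = woot (2 * √(del γ ν x)) := by
    intro x
    rw [gg, woot, mul_pow, Real.sq_sqrt (del_nonneg hγ hν x)]
    norm_num
  have hm : ∀ x ∈ Set.Icc (0 : ℝ) 1, 2 * √(del γ ν x) ∈ Set.Icc (0 : ℝ) 1 := by
    intro x hx
    refine ⟨by positivity, ?_⟩
    have : √(del γ ν x) ≤ 1 / 2 := Real.sqrt_le_iff.2 ⟨by norm_num, by linarith [del_le (ν := ν) hγ hx]⟩
    linarith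
  have hc := (convex_Icc (0 : ℝ) 1).sum_mem (fun a _ => hp a) hs fun a _ => hq a
  have hc' := (convex_Icc (0 : ℝ) 1).sum_mem (fun a _ => hp a) hs fun a _ => hm _ (hq a)
  have h1 := woot_convex.map_sum_le (fun a _ => hp a) hs fun a _ => hm _ (hq a)
  simp only [smul_eq_mul] at hc hc' h1
  simp only [e]
  refine (woot_mono (hm _ hc) hc' ?_).trans h1
  have h2 := sqrt_jensen (fun a => q a - ν) hp hs
    (mul_nonneg (mul_nonneg hγ.1 hν.1) (sub_nonneg.2 hν.2)) (mul_nonneg hγ.1 (sub_nonneg.2 hγ.2))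
  simp only [mul_sub (p _), Finset.sum_sub_distrib, ← Finset.sum_mul, hs, one_mul] at h2
  simp only [mul_left_comm (p _), ← Finset.mul_sum, del]
  linarith

theorem block_gadc {α δ : Type} [Fintype α] [Fintype δ] [DecidableEq α] [DecidableEq δ]
    (V W : Matrix α δ ℂ) :
    HH (V * Vᴴ) + HH (W * Wᴴ) + (rt (V * Vᴴ) + rt (W * Wᴴ))
        * gg γ ν (rt (W * Wᴴ) / (rt (V * Vᴴ) + rt (W * Wᴴ)))
      ≤ HH (fromBlocks ((1 - γ * ν) • (V * Vᴴ) + (γ * (1 - ν)) • (W * Wᴴ)) (√(1 - γ) • (V * Wᴴ))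
        (√(1 - γ) • (W * Vᴴ)) ((γ * ν) • (V * Vᴴ) + (1 - γ + γ * ν) • (W * Wᴴ))) := by
  have h0 := rt_nonneg (self_nonneg' V)
  have h1 := rt_nonneg (self_nonneg' W)
  have hq : rt (W * Wᴴ) / (rt (V * Vᴴ) + rt (W * Wᴴ)) ∈ Set.Icc (0 : ℝ) 1 :=
    ⟨by positivity, div_le_one_of_le₀ (by linarith) (by positivity)⟩
  have d0 := del_nonneg hγ hν (rt (W * Wᴴ) / (rt (V * Vᴴ) + rt (W * Wᴴ)))
  have d1 := sub_nonneg.2 (del_le (ν := ν) hγ hq)
  have u0 := Real.sqrt_nonneg (1 - 4 * del γ ν (rt (W * Wᴴ) / (rt (V * Vᴴ) + rt (W * Wᴴ))))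
  have u1 : √(1 - 4 * del γ ν (rt (W * Wᴴ) / (rt (V * Vᴴ) + rt (W * Wᴴ)))) ≤ 1 :=
    Real.sqrt_le_one.2 (by linarith)
  have hγν := mul_nonneg hγ.1 hν.1
  rw [gg, ← h2_eq (add_nonneg h0 h1) (by linarith) (by linarith)]
  refine block_E V W (sub_nonneg.2 (mul_le_one₀ hγ.2 hν.1 hν.2))
    (mul_nonneg hγ.1 (sub_nonneg.2 hν.2)) hγν (by linarith [hγ.2]) (Real.sqrt_nonneg _) (by ring)
    (by ring) (by rw [Real.sq_sqrt (sub_nonneg.2 hγ.2)]; ring)
    (mul_nonneg (add_nonneg h0 h1) (by linarith)) (mul_nonneg (add_nonneg h0 h1) (by linarith))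
    (by ring) ?_
  have u2 := Real.sq_sqrt d1
  rw [Real.sq_sqrt (sub_nonneg.2 hγ.2)]
  generalize rt (V * Vᴴ) = x at *
  generalize rt (W * Wᴴ) = y at *
  generalize √(1 - 4 * del γ ν (y / (x + y))) = u at *
  have e : (x + y) ^ 2 * del γ ν (y / (x + y))
      = γ * ν * (1 - ν) * (x + y) ^ 2 + γ * (1 - γ) * (y - ν * (x + y)) ^ 2 := by
    rcases eq_or_lt_of_le (add_nonneg h0 h1) with h | h
    · rw [← h, show y = 0 by linarith]; ring
    · rw [del]; field_simp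
  linear_combination (-(x + y) ^ 2 / 4) * u2 + e

theorem tp_nonneg {ρ : Matrix (Fin n → Fin 2) (Fin n → Fin 2) ℂ} (h : 0 ≤ ρ) :
    0 ≤ tensorPow (gadc γ ν) n ρ := by
  rw [tensorPow_kraus (gadc_kraus hγ hν)]
  exact Finset.sum_nonneg fun j _ => conj_nonneg' h _

theorem tp_block_nonneg {ρ : Matrix (Fin (n + 1) → Fin 2) (Fin (n + 1) → Fin 2) ℂ} (h : 0 ≤ ρ) :
    0 ≤ fromBlocks (tensorPow (gadc γ ν) n (blk 0 0 ρ)) (tensorPow (gadc γ ν) n (blk 0 1 ρ))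
      (tensorPow (gadc γ ν) n (blk 1 0 ρ)) (tensorPow (gadc γ ν) n (blk 1 1 ρ)) := by
  have h1 := (h.posSemidef.submatrix (spl n)).nonneg
  rw [sub_spl] at h1
  have h2 := Finset.sum_nonneg fun (j : Fin n → Fin 4) (_ : j ∈ Finset.univ) =>
    conj_nonneg' h1 (fromBlocks (piT fun k => kr γ ν (j k)) 0 0 (piT fun k => kr γ ν (j k)))
  refine h2.trans (le_of_eq ?_)
  simp only [tensorPow_kraus (gadc_kraus hγ hν), fromBlocks_conjTranspose, fromBlocks_multiply,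
    conjTranspose_zero, Matrix.mul_zero, Matrix.zero_mul, add_zero, zero_add]
  ext (x | x) (y | y) <;> simp [Matrix.sum_apply]

theorem upper {F : ℝ} (hF : ∀ q ∈ Set.Icc (0 : ℝ) 1,
    Real.binEntropy ((1 - γ) * q + γ * ν) - gg γ ν q ≤ F) (n : ℕ) :
    ∀ (ι : Type) [Fintype ι] (ρ : ι → Matrix (Fin n → Fin 2) (Fin n → Fin 2) ℂ),
      (∀ a, 0 ≤ ρ a) → ∑ a, rt (tensorPow (gadc γ ν) n (ρ a)) = 1 →
      HH (∑ a, tensorPow (gadc γ ν) n (ρ a)) - ∑ a, HH (tensorPow (gadc γ ν) n (ρ a))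
        ≤ n * F := by
  induction n with
  | zero =>
    intro ι _ ρ hρ _
    rw [HH_unique (Finset.sum_nonneg fun a _ => tp_nonneg hγ hν (hρ a))]
    simp [fun a => HH_unique (tp_nonneg hγ hν (hρ a))]
  | succ n ih =>
    intro ι _ ρ hρ hs
    choose V W e00 e01 e10 e11 using fun a => block_factor (tp_block_nonneg hγ hν (hρ a))
    have hb : ∀ (i : Fin 2) a, 0 ≤ blk i i (ρ a) := fun i a =>
      ((hρ a).posSemidef.submatrix _).nonneg
    have hT := fun a => tensorPow_succ γ ν (ρ a)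
    simp only [e00, e01, e10, e11] at hT
    have h0 := fun a => rt_nonneg (self_nonneg' (V a))
    have h1 := fun a => rt_nonneg (self_nonneg' (W a))
    have hs' : ∑ a, (rt (V a * (V a)ᴴ) + rt (W a * (W a)ᴴ)) = 1 := by
      rw [← hs]
      refine Finset.sum_congr rfl fun a _ => ?_
      rw [← rt_submatrix (spl n), hT, rt_fromBlocks]
      simp only [rt_add, rt_smul]
      ring
    have hI := ih (ι ⊕ ι) (Sum.elim (fun a => blk 0 0 (ρ a)) fun a => blk 1 1 (ρ a))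
      (by rintro (a | a) <;> exact hb _ a) (by
        simp only [Fintype.sum_sum_type, Sum.elim_inl, Sum.elim_inr, e00, e11]
        rw [← Finset.sum_add_distrib, hs'])
    simp only [Fintype.sum_sum_type, Sum.elim_inl, Sum.elim_inr, e00, e11] at hI
    have hE := Finset.sum_le_sum fun a (_ : a ∈ Finset.univ) => block_gadc hγ hν (V a) (W a)
    simp only [← hT, fun a => HH_submatrix (spl n) (tp_nonneg hγ hν (hρ a)),
      Finset.sum_add_distrib] at hE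
    have hq : ∀ a, rt (W a * (W a)ᴴ) / (rt (V a * (V a)ᴴ) + rt (W a * (W a)ᴴ))
        ∈ Set.Icc (0 : ℝ) 1 := fun a =>
      ⟨div_nonneg (h1 a) (add_nonneg (h0 a) (h1 a)),
        div_le_one_of_le₀ (le_add_of_nonneg_left (h0 a)) (add_nonneg (h0 a) (h1 a))⟩
    have hJ := gg_jensen hγ hν (fun a => add_nonneg (h0 a) (h1 a)) hs' hq
    have e1 : ∑ a, (rt (V a * (V a)ᴴ) + rt (W a * (W a)ᴴ)) *
        (rt (W a * (W a)ᴴ) / (rt (V a * (V a)ᴴ) + rt (W a * (W a)ᴴ)))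
        = rt (∑ a, W a * (W a)ᴴ) := by
      rw [rt_sum]
      refine Finset.sum_congr rfl fun a _ => ?_
      rcases eq_or_lt_of_le (add_nonneg (h0 a) (h1 a)) with h | h
      · rw [← h, zero_mul]; linarith [h0 a, h1 a]
      · field_simp
    rw [e1] at hJ
    rw [Finset.sum_add_distrib, ← rt_sum, ← rt_sum] at hs'
    have hX := Finset.sum_nonneg fun a (_ : a ∈ Finset.univ) => tp_nonneg hγ hν (hρ a)
    have hA := Finset.sum_nonneg fun a (_ : a ∈ Finset.univ) => self_nonneg' (V a)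
    have hD := Finset.sum_nonneg fun a (_ : a ∈ Finset.univ) => self_nonneg' (W a)
    have e2 : (∑ a, tensorPow (gadc γ ν) (n + 1) (ρ a)).submatrix (spl n) (spl n)
        = fromBlocks ((1 - γ * ν) • ∑ a, V a * (V a)ᴴ + (γ * (1 - ν)) • ∑ a, W a * (W a)ᴴ)
          (√(1 - γ) • ∑ a, V a * (W a)ᴴ) (√(1 - γ) • ∑ a, W a * (V a)ᴴ)
          ((γ * ν) • ∑ a, V a * (V a)ᴴ + (1 - γ + γ * ν) • ∑ a, W a * (W a)ᴴ) := by
      ext x y
      have := fun a => congrFun (congrFun (hT a) x) y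
      simp only [submatrix_apply] at this
      rw [submatrix_apply, Matrix.sum_apply]
      simp only [this]
      rcases x with x | x <;> rcases y with y | y <;>
        simp [Matrix.sum_apply, Finset.sum_add_distrib, Finset.mul_sum]
    have p1 := (hX.posSemidef.submatrix (spl n)).nonneg
    rw [e2] at p1
    have hP := pinch p1
    rw [← e2, HH_submatrix _ hX] at hP
    generalize ∑ a, V a * (V a)ᴴ = A at *
    generalize ∑ a, W a * (W a)ᴴ = D at *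
    have a0 := rt_nonneg hA
    have d0 := rt_nonneg hD
    have hd : rt D ∈ Set.Icc (0 : ℝ) 1 := ⟨d0, by linarith⟩
    have t0 : 0 ≤ (1 - γ) * rt D + γ * ν :=
      add_nonneg (mul_nonneg (sub_nonneg.2 hγ.2) d0) (mul_nonneg hγ.1 hν.1)
    have t1 : (1 - γ) * rt D + γ * ν ≤ 1 := by
      nlinarith [mul_nonneg (sub_nonneg.2 hγ.2) (sub_nonneg.2 hd.2),
        mul_nonneg hγ.1 (sub_nonneg.2 hν.2)]
    have e3 := h2_eq zero_le_one (sub_nonneg.2 t1) (sub_le_self _ t0)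
    rw [show (1 - γ * ν) • A + (γ * (1 - ν)) • D + ((γ * ν) • A + (1 - γ + γ * ν) • D) = A + D by
      module, rt_add, rt_add, rt_smul, rt_smul, rt_smul, rt_smul,
      show (1 - γ * ν) * rt A + γ * (1 - ν) * rt D = 1 * (1 - ((1 - γ) * rt D + γ * ν)) by
        linear_combination (1 - γ * ν) * hs',
      show γ * ν * rt A + (1 - γ + γ * ν) * rt D = 1 * (1 - (1 - ((1 - γ) * rt D + γ * ν))) by
        linear_combination (γ * ν) * hs', e3, Real.binEntropy_one_sub] at hP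
    have := hF _ hd
    push_cast
    linarith

end Vale.Agent.P358
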