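import Vale.Agent.P358.Block
import Vale.Agent.P358.Defs

/-!
Tensor products of matrices, Kraus form of tensor powers, additivity of the entropy.
-/

namespace Vale.Agent.P358

open Matrix Vale.Agent.P350
open scoped ComplexOrder MatrixOrder

variable {n : ℕ} {α β δ : Type} [Fintype α] [Fintype β] [Fintype δ]

def piT (M : Fin n → Matrix α β ℂ) : Matrix (Fin n → α) (Fin n → β) ℂ :=
  Matrix.of fun x y => ∏ k, M k (x k) (y k)

theorem sum_prod_pi {R : Type} [CommSemiring R] (f : Fin n → β → R) :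
    ∑ z : Fin n → β, ∏ k, f k (z k) = ∏ k, ∑ b, f k b := by
  rw [Finset.prod_univ_sum, Fintype.piFinset_univ]

omit [Fintype α] [Fintype δ] in
theorem piT_mul (M : Fin n → Matrix α β ℂ) (N : Fin n → Matrix β δ ℂ) :
    piT M * piT N = piT fun k => M k * N k := by
  ext x y
  simp only [piT, mul_apply, of_apply, ← Finset.prod_mul_distrib]
  exact sum_prod_pi fun k b => M k (x k) b * N k b (y k)

omit [Fintype α] [Fintype β] in
theorem piT_ct (M : Fin n → Matrix α β ℂ) : (piT M)ᴴ = piT fun k => (M k)ᴴ := by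
  ext x y
  simp [piT]

omit [Fintype α] in
theorem piT_diag [DecidableEq α] (t : Fin n → α → ℂ) :
    piT (fun k => diagonal (t k)) = diagonal fun x => ∏ k, t k (x k) := by
  ext x y
  by_cases h : x = y
  · subst h; simp [piT]
  · obtain ⟨k, hk⟩ := Function.ne_iff.1 h
    rw [diagonal_apply_ne _ h, piT, of_apply]
    exact Finset.prod_eq_zero (Finset.mem_univ k) (diagonal_apply_ne _ hk)

omit [Fintype α] in
theorem piT_one [DecidableEq α] : piT (fun _ : Fin n => (1 : Matrix α α ℂ)) = 1 := by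
  have := piT_diag (n := n) (α := α) fun _ _ => 1
  simpa using this

theorem piT_dg [DecidableEq α] (U : Fin n → Matrix α α ℂ) (t : Fin n → α → ℝ) :
    piT (fun k => dg (U k) (t k)) = dg (piT U) fun x => ∏ k, t k (x k) := by
  simp only [dg, Complex.ofReal_prod]
  rw [piT_ct, ← piT_diag fun k i => (t k i : ℂ), piT_mul, piT_mul]

omit [Fintype α] in
theorem piT_sum (q : Fin n → δ → ℂ) (M : Fin n → δ → Matrix α α ℂ) :
    piT (fun k => ∑ a, q k a • M k a)
      = ∑ s : Fin n → δ, (∏ k, q k (s k)) • piT fun k => M k (s k) := by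
  ext x y
  simp only [piT, of_apply, Matrix.sum_apply, Matrix.smul_apply, smul_eq_mul,
    ← Finset.prod_mul_distrib]
  exact (sum_prod_pi fun k a => q k a * M k a (x k) (y k)).symm

theorem piT_nonneg {M : Fin n → Matrix α α ℂ} (hM : ∀ k, 0 ≤ M k) : 0 ≤ piT M := by
  choose C hC using fun k => exists_sqrt (hM k)
  rw [funext hC, ← piT_mul, ← piT_ct]
  exact self_nonneg _

theorem trace_piT (M : Fin n → Matrix α α ℂ) : trace (piT M) = ∏ k, trace (M k) :=
  sum_prod_pi fun k a => M k a a

theorem sum_prod_mul_sum (p f : Fin n → β → ℝ) (hp : ∀ k, ∑ b, p k b = 1) :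
    ∑ z : Fin n → β, (∏ k, p k (z k)) * ∑ k, f k (z k) = ∑ k, ∑ b, p k b * f k b := by
  simp only [Finset.mul_sum]
  rw [Finset.sum_comm]
  refine Finset.sum_congr rfl fun k _ => ?_
  have := sum_prod_pi fun j b => p j b * if j = k then f j b else 1
  simp only [Finset.prod_mul_distrib, Finset.prod_ite_eq', Finset.mem_univ, if_true] at this
  rw [this, Finset.prod_eq_single k (fun j _ hj => by simp [hj, hp]) (by simp)]
  simp

theorem phi_piT [DecidableEq α] {M : Fin n → Matrix α α ℂ} (hM : ∀ k, 0 ≤ M k)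
    (h1 : ∀ k, rt (M k) = 1) : phi (piT M) = ∑ k, phi (M k) := by
  choose U t hU hU' e using fun k => exists_dg (herm_of_nonneg (hM k))
  have ht : ∀ k i, 0 ≤ t k i := fun k => nonneg_of_dg (hU k) (e k ▸ hM k)
  rw [funext e, piT_dg, phi_dg (by rw [piT_ct, piT_mul, funext hU, piT_one])
    (by rw [piT_ct, piT_mul, funext hU', piT_one]) fun x => Finset.prod_nonneg fun k _ => ht k _]
  simp only [fun k => phi_dg (hU k) (hU' k) (ht k)]
  rw [← sum_prod_mul_sum t (fun k i => Real.log (t k i)) fun k => by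
    rw [← rt_dg (hU k), ← e k, h1]]
  refine Finset.sum_congr rfl fun x _ => ?_
  by_cases h : ∏ k, t k (x k) = 0
  · simp [h]
  · rw [Real.log_prod fun k hk => Finset.prod_ne_zero_iff.1 h k hk]

section Kraus

variable {J : Type} [Fintype J] {K : J → Matrix (Fin 2) (Fin 2) ℂ}
  {N : Matrix (Fin 2) (Fin 2) ℂ → Matrix (Fin 2) (Fin 2) ℂ}

theorem tensorPow_kraus (hN : ∀ ρ, N ρ = ∑ j, K j * ρ * (K j)ᴴ)
    (ρ : Matrix (Fin n → Fin 2) (Fin n → Fin 2) ℂ) :
    tensorPow N n ρ = ∑ j : Fin n → J, piT (fun k => K (j k)) * ρ * (piT fun k => K (j k))ᴴ := by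
  have e : ∀ u v x y : Fin 2, N (single u v 1) x y = ∑ j, K j x u * star (K j y v) := by
    intro u v x y
    rw [hN, Matrix.sum_apply]
    refine Finset.sum_congr rfl fun j _ => ?_
    simp [mul_apply, single, ite_and]
  ext x y
  simp only [tensorPow, of_apply, e, Matrix.sum_apply, mul_apply, conjTranspose_apply, piT,
    Finset.sum_mul, star_prod]
  simp only [← sum_prod_pi, Finset.mul_sum, Finset.prod_mul_distrib]
  rw [Finset.sum_comm]
  symm
  rw [Finset.sum_comm]
  refine Finset.sum_congr rfl fun v _ => ?_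
  rw [Finset.sum_comm]
  exact Finset.sum_congr rfl fun u _ => Finset.sum_congr rfl fun j _ => by ring

theorem tensorPow_piT (hN : ∀ ρ, N ρ = ∑ j, K j * ρ * (K j)ᴴ)
    (M : Fin n → Matrix (Fin 2) (Fin 2) ℂ) : tensorPow N n (piT M) = piT fun k => N (M k) := by
  have := piT_sum (fun _ _ => 1) fun k j => K j * M k * (K j)ᴴ
  simp only [one_smul, Finset.prod_const_one] at this
  rw [tensorPow_kraus hN]
  simp only [hN, this, piT_ct, piT_mul]

end Kraus

end Vale.Agent.P358
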